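import Mathlib

/-! The differential algebra behind the construction. -/

namespace Vale.Agent.P205

variable {R : Type*} [CommRing R]

/-- the connection coefficient -/
def fW (t y n2 l1 l2 l12 l22 : R) : R := y * ((1 + t * l1 * l2) * n2 - t * (l12 * l2 - l1 * l22))

/-- logarithmic derivative of `t` -/
def fT (t y n1 l1 l2 l11 l12 : R) : R :=
  2 * y * ((1 + t * l1 * l2) * n1 + t * (l11 * l2 + l1 * l12))

/-- derivative of `t * l1 * l2`, divided by `t` -/
def fU (t y n1 l1 l2 l11 l12 : R) : R :=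
  fT t y n1 l1 l2 l11 l12 * (l1 * l2) + (l11 * l2 + l1 * l12)

/-- the nonlinear part of the curvature equation -/
def fPsi (t y n1 n2 n12 l1 l2 l11 l12 l22 : R) : R :=
  y * (4 * (l1 * l2) * n12 + fU t y n1 l1 l2 l11 l12 * (fW t y n2 l1 l2 l12 l22 + n2)
    + fU t y n2 l2 l1 l22 l12 * (fW t y n1 l2 l1 l12 l11 + n1)
    - fT t y n1 l1 l2 l11 l12 * (l12 * l2 - l1 * l22)
    - fT t y n2 l2 l1 l22 l12 * (l12 * l1 - l2 * l11) - 2 * (l12 ^ 2 - l11 * l22))

lemma fPsi_symm (t y n1 n2 n12 l1 l2 l11 l12 l22 : R) :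
    fPsi t y n2 n1 n12 l2 l1 l22 l12 l11 = fPsi t y n1 n2 n12 l1 l2 l11 l12 l22 := by
  simp only [fPsi]; ring

lemma map_fW {S : Type*} [CommRing S] (g : R →+* S) (t y n2 l1 l2 l12 l22 : R) :
    g (fW t y n2 l1 l2 l12 l22) = fW (g t) (g y) (g n2) (g l1) (g l2) (g l12) (g l22) := by
  simp [fW]

lemma map_fPsi {S : Type*} [CommRing S] (g : R →+* S) (t y n1 n2 n12 l1 l2 l11 l12 l22 : R) :
    g (fPsi t y n1 n2 n12 l1 l2 l11 l12 l22) =
      fPsi (g t) (g y) (g n1) (g n2) (g n12) (g l1) (g l2) (g l11) (g l12) (g l22) := by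
  simp [fPsi, fU, fT, fW, map_ofNat]

variable [Algebra ℂ R]

lemma der_t (d : Derivation ℂ R R) {s e t y n1 l1 l2 l11 l12 : R} (hs : d s = 0)
    (he : d e = 2 * e * n1) (h1 : d l1 = l11) (h2 : d l2 = l12)
    (ht : t = s * e * (1 + t * l1 * l2) ^ 2) (hy : y * (1 - t * l1 * l2) = 1) :
    d t = t * fT t y n1 l1 l2 l11 l12 := by
  have h := congrArg d ht
  simp only [pow_two, Derivation.leibniz, map_add, Derivation.map_one_eq_zero, smul_eq_mul, hs, he,
    h1, h2] at h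
  simp only [fT]
  have h3 : (1 - t * l1 * l2) * d t =
      2 * t * ((1 + t * l1 * l2) * n1 + t * (l11 * l2 + l1 * l12)) := by
    linear_combination (1 + t * l1 * l2) * h -
      2 * ((1 + t * l1 * l2) * n1 + t * (l11 * l2 + l1 * l12) + d t * l1 * l2) * ht
  linear_combination y * h3 - d t * hy

lemma der_inv (d : Derivation ℂ R R) {y a : R} (hy : y * a = 1) : d y = -y ^ 2 * d a := by
  have h := congrArg d hy
  simp only [Derivation.leibniz, Derivation.map_one_eq_zero, smul_eq_mul] at h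
  linear_combination y * h - d y * hy

lemma der_W (d d' : Derivation ℂ R R) {t y n1 n2 n12 l1 l2 l11 l12 l22 : R}
    (hn2 : d n2 = n12) (hn1 : d' n1 = n12) (h11 : d l1 = l11) (h12 : d' l1 = l12)
    (h21 : d l2 = l12) (h22 : d' l2 = l22) (h3 : d l12 = d' l11) (h3' : d' l12 = d l22)
    (ht : d t = t * fT t y n1 l1 l2 l11 l12) (ht' : d' t = t * fT t y n2 l2 l1 l22 l12)
    (hy : y * (1 - t * l1 * l2) = 1) :
    d (fW t y n2 l1 l2 l12 l22) + d' (fW t y n1 l2 l1 l12 l11) =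
      2 * n12 + t * fPsi t y n1 n2 n12 l1 l2 l11 l12 l22 := by
  have hdy := der_inv d hy
  have hdy' := der_inv d' hy
  simp only [fPsi, fU, fW, Derivation.leibniz, map_add, map_sub, Derivation.map_one_eq_zero,
    smul_eq_mul, hn2, hn1, h11, h12, h21, h22, h3, h3', ht, ht', hdy, hdy']
  linear_combination 2 * n12 * hy

lemma der_closed (d d' : Derivation ℂ R R) {t y v n1 n2 l1 l2 l11 l12 l22 : R}
    (h11 : d l1 = l11) (h12 : d' l1 = l12) (h21 : d l2 = l12) (h22 : d' l2 = l22)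
    (ht : d t = t * fT t y n1 l1 l2 l11 l12) (ht' : d' t = t * fT t y n2 l2 l1 l22 l12)
    (hy : y * (1 - t * l1 * l2) = 1) (hv : v * (1 + t * l1 * l2) = 1) :
    d' v + v * (-n2 + fW t y n2 l1 l2 l12 l22) =
      d (-(t * v * l2 ^ 2)) + -(t * v * l2 ^ 2) * (-n1 - fW t y n1 l2 l1 l12 l11) := by
  have hdv := der_inv d hv
  have hdv' := der_inv d' hv
  simp only [fT, fW, pow_two, Derivation.leibniz, map_add, map_neg, Derivation.map_one_eq_zero,
    smul_eq_mul, h11, h12, h21, h22, ht, ht', hdv, hdv']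
  grind

end Vale.Agent.P205
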