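import Vale.Agent.P205.Sm

/-! Poincare lemma, vanishing of the rotational holonomy, and global invertibility. -/

open scoped ComplexConjugate ContDiff Real Topology
open Complex Filter

noncomputable section

namespace Vale.Agent.P205

lemma Lat.poincare (L : Lat) {a b : Sm} (h : L.d' a = L.d b) :
    ∃ W : E → ℂ, ContDiff ℝ ∞ W ∧
      ∀ x v, fderiv ℝ W x v = L.z v * (a : E → ℂ) x + conj (L.z v) * (b : E → ℂ) x := by
  let zb : E →L[ℝ] ℂ := conjCLE.toContinuousLinearMap ∘L L.z
  let om : E → E →L[ℝ] ℂ := fun x => (a : E → ℂ) x • L.z + (b : E → ℂ) x • zb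
  have hom : ContDiff ℝ ∞ om :=
    ((Sm.smooth a).smul contDiff_const).add ((Sm.smooth b).smul contDiff_const)
  have hd : ∀ x u v, fderiv ℝ om x u v =
      fderiv ℝ (a : E → ℂ) x u * L.z v + fderiv ℝ (b : E → ℂ) x u * conj (L.z v) := by
    intro x u v
    have := (((Sm.diff a x).hasFDerivAt.smul_const L.z).fun_add
      ((Sm.diff b x).hasFDerivAt.smul_const zb)).fderiv
    rw [this]
    rfl
  obtain ⟨W, hW⟩ := convex_univ.exists_forall_hasFDerivAt_of_fderiv_symmetric (𝕜 := ℝ) isOpen_univ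
    (hom.differentiable (by simp)).differentiableOn (fun x _ u v => by
      rw [hd, hd, L.fderiv_eq, L.fderiv_eq, L.fderiv_eq, L.fderiv_eq, h]; ring)
  have hW' : fderiv ℝ W = om := funext fun x => (hW x trivial).fderiv
  refine ⟨W, contDiff_infty_iff_fderiv.2 ⟨fun x => (hW x trivial).differentiableAt, hW' ▸ hom⟩,
    fun x v => ?_⟩
  rw [hW']
  change (a : E → ℂ) x * L.z v + (b : E → ℂ) x * conj (L.z v) = _
  ring

lemma shift_const {W : E → ℂ} (hW : Differentiable ℝ W) {u : E} {χ : ℂ}
    (h : ∀ x, fderiv ℝ W (x + u) = χ • fderiv ℝ W x) : ∃ c, ∀ x, W (x + u) = χ * W x + c := by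
  have hd : ∀ x, HasFDerivAt (fun x => W (x + u) - χ * W x) (0 : E →L[ℝ] ℂ) x := fun x => by
    have h1 : HasFDerivAt (fun x => W (x + u)) (fderiv ℝ W (x + u)) x :=
      (hasFDerivAt_comp_add_right u).2 (hW _).hasFDerivAt
    have h2 := h1.fun_sub ((hW x).hasFDerivAt.const_mul χ)
    rwa [h x, sub_self] at h2
  have := is_const_of_fderiv_eq_zero (fun x => (hd x).differentiableAt) fun x => (hd x).fderiv
  exact ⟨W (0 + u) - χ * W 0, fun x => by rw [← this x 0]; ring⟩

lemma holonomy {W : E → ℂ} (hW : Differentiable ℝ W) {χ : K → ℂ} (hχ : ∀ k, ‖χ k‖ = 1)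
    (h : ∀ x k, fderiv ℝ W (x + lat k) = χ k • fderiv ℝ W x)
    (hs : ∀ x, Function.Surjective (fderiv ℝ W x)) (k : K) : χ k = 1 := by
  by_contra hk
  choose c hc using fun l => shift_const hW (fun x => h x l)
  have hk' : 1 - χ k ≠ 0 := sub_ne_zero.2 (Ne.symm hk)
  set w := c k / (1 - χ k) with hw
  have h1 : ∀ x l, W (x + lat l) - w = χ l * (W x - w) := by
    intro x l
    have e1 := hc k (x + lat l)
    have e2 := hc l (x + lat k)
    rw [add_right_comm, e1, hc, hc] at e2
    rw [hc, hw]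
    field_simp
    linear_combination -e2
  have hp : Per fun x => ‖W x - w‖ ^ 2 := fun x l => by simp only [h1, norm_mul, hχ, one_mul]
  obtain ⟨x₀, hx₀⟩ := exists_max (by have := hW.continuous; fun_prop) hp
  have h2 := ((hW x₀).hasFDerivAt.sub_const w).norm_sq
  have h3 := IsLocalMax.hasFDerivAt_eq_zero (.of_forall hx₀) h2
  obtain ⟨v, hv⟩ := hs x₀ (W x₀ - w)
  have h4 := DFunLike.congr_fun h3 v
  have h5 : ‖W x₀ - w‖ ^ 2 = 0 := by
    simp only [smul_apply, ContinuousLinearMap.comp_apply, hv, innerSL_apply_apply,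
      real_inner_self_eq_norm_sq, zero_apply, nsmul_eq_mul] at h4
    simpa using h4
  have h6 : W = fun _ => w := funext fun x => by
    have := hx₀ x
    rw [h5] at this
    have h7 : ‖W x - w‖ ^ 2 = 0 := le_antisymm this (sq_nonneg _)
    simpa [sub_eq_zero] using h7
  obtain ⟨u, hu⟩ := hs 0 1
  rw [h6] at hu
  simp at hu

lemma periods {W : E → ℂ} (hW : Differentiable ℝ W) (h : Per (fderiv ℝ W))
    (hs : ∀ x, Function.Surjective (fderiv ℝ W x)) :
    ∃ L : Lat, ∀ x k, W (x + lat k) = W x + L.z (lat k) := by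
  choose c hc using fun l => shift_const hW (χ := 1) (fun x => by rw [one_smul]; exact h x l)
  simp only [one_mul] at hc
  have hadd : ∀ k l, c (k + l) = c k + c l := fun k l => by
    have e1 := hc (k + l) 0
    have : lat (k + l) = lat k + lat l := by ext i; simp [lat]
    rw [this, ← add_assoc, hc, hc] at e1
    linear_combination -e1
  let C : K →+ ℂ := AddMonoidHom.mk' c hadd
  have hC : ∀ k : K, c k = k 0 * c (Pi.single 0 1) + k 1 * c (Pi.single 1 1) := fun k => by
    have : k = k 0 • (Pi.single 0 1 : K) + k 1 • (Pi.single 1 1 : K) := by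
      ext i; fin_cases i <;> simp
    change C k = k 0 * C _ + k 1 * C _
    conv_lhs => rw [this, map_add, map_zsmul, map_zsmul]
    simp
  set c₀ := c (Pi.single 0 1)
  set c₁ := c (Pi.single 1 1)
  have key : ∀ ρ : ℂ, (conj ρ * c₀).im = 0 → (conj ρ * c₁).im = 0 → ρ = 0 := by
    intro ρ h0 h1
    have hp : Per fun x => (conj ρ * W x).im := fun x k => by
      simp only [hc, hC k, mul_add, add_im, mul_left_comm (conj ρ) (k _ : ℂ)]
      rw [← ofReal_intCast, ← ofReal_intCast, im_ofReal_mul, im_ofReal_mul, h0, h1]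
      simp
    obtain ⟨x₀, hx₀⟩ := exists_max (by have := hW.continuous; fun_prop) hp
    have h2 := imCLM.hasFDerivAt.comp x₀ ((hW x₀).hasFDerivAt.const_mul (conj ρ))
    have h3 := IsLocalMax.hasFDerivAt_eq_zero (.of_forall hx₀) h2
    obtain ⟨v, hv⟩ := hs x₀ (ρ * I)
    have h4 := DFunLike.congr_fun h3 v
    simp only [ContinuousLinearMap.comp_apply, smul_apply, hv, smul_eq_mul, imCLM_apply,
      zero_apply] at h4
    rw [← mul_assoc, ← normSq_eq_conj_mul_self] at h4
    simpa using h4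
  have hne : c₀ * conj c₁ - conj c₀ * c₁ ≠ 0 := by
    intro h0
    have h1 : (conj c₀ * c₁).im = 0 := by
      rw [← conj_eq_iff_im, map_mul, conj_conj]; linear_combination h0
    have h2 : c₀ = 0 := key c₀ (by rw [← normSq_eq_conj_mul_self, ofReal_im]) h1
    have h3 : c₁ = 0 := key c₁ (by simp [h2]) (by rw [← normSq_eq_conj_mul_self, ofReal_im])
    exact one_ne_zero (key 1 (by simp [h2]) (by simp [h3]))
  refine ⟨⟨![c₀, c₁], hne⟩, fun x k => ?_⟩
  rw [hc, hC k, Lat.z_apply]
  simp [lat]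

/-- an injective real linear map from the plane to the complex line is an isomorphism -/
def equivOfInj (f : E →L[ℝ] ℂ) (hf : Function.Injective f) : E ≃L[ℝ] ℂ :=
  (LinearEquiv.ofInjectiveOfFinrankEq (f : E →ₗ[ℝ] ℂ) hf (by simp)).toContinuousLinearEquiv

lemma coe_equivOfInj (f : E →L[ℝ] ℂ) (hf : Function.Injective f) :
    (equivOfInj f hf : E →L[ℝ] ℂ) = f := by
  ext v; rfl

lemma surj_of_inj {f : E →L[ℝ] ℂ} (hf : Function.Injective f) : Function.Surjective f :=
  (equivOfInj f hf).surjective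

lemma Lat.z_injective (L : Lat) : Function.Injective L.z :=
  (injective_iff_map_eq_zero L.z).2 fun _ => L.z_inj

theorem exists_inverse {W : E → ℂ} (hW : ContDiff ℝ ∞ W) (L : Lat)
    (h : ∀ x k, W (x + lat k) = W x + L.z (lat k))
    (hi : ∀ x, Function.Injective (fderiv ℝ W x)) :
    ∃ V : ℂ → E, ContDiff ℝ ∞ V ∧ (∀ x, V (W x) = x) ∧ ∀ y, W (V y) = y := by
  have hd : ∀ x, HasFDerivAt W (equivOfInj _ (hi x) : E →L[ℝ] ℂ) x := fun x => by
    rw [coe_equivOfInj]; exact (hW.differentiable (by simp) x).hasFDerivAt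
  have hloc : IsLocalHomeomorph W := fun x =>
    ⟨hW.contDiffAt.toOpenPartialHomeomorph W (hd x) (by simp),
      hW.contDiffAt.mem_toOpenPartialHomeomorph_source (hd x) (by simp), rfl⟩
  have hprop : IsProperMap W := by
    have hp : Per fun x => ‖W x - L.z x‖ := fun x k => by simp only [h, map_add]; congr 1; ring
    obtain ⟨x₀, hx₀⟩ := exists_max (by have := hW.continuous; fun_prop) hp
    refine isProperMap_iff_tendsto_cocompact.2 ⟨hW.continuous, ?_⟩
    have h1 : Tendsto L.z (cocompact E) (cocompact ℂ) :=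
      (isProperMap_iff_tendsto_cocompact.1
        (equivOfInj _ L.z_injective).toHomeomorph.isProperMap).2
    simp only [← Metric.cobounded_eq_cocompact, ← tendsto_norm_atTop_iff_cobounded] at h1 ⊢
    refine tendsto_atTop_mono (fun x => ?_)
      (tendsto_atTop_add_const_right _ (-‖W x₀ - L.z x₀‖) h1)
    have := norm_sub_norm_le (L.z x) (W x)
    rw [norm_sub_rev] at this
    linarith [hx₀ x]
  have hcov : IsCoveringMap W := by
    rw [isCoveringMap_iff_isCoveringMapOn_univ]
    refine hprop.isClosedMap.isCoveringMapOn_of_isLocalHomeomorphOn (fun y _ => ?_)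
      (hloc.isLocalHomeomorphOn)
    exact (hprop.isCompact_preimage isCompact_singleton).finite
      (IsDiscrete.of_openPartialHomeomorph W subset_rfl fun e _ => by
        obtain ⟨φ, h1, h2⟩ := hloc e
        exact ⟨φ, h1, h2.symm⟩)
  obtain ⟨V, ⟨hV0, hV⟩, -⟩ := hcov.existsUnique_continuousMap_lifts (ContinuousMap.id ℂ) (W 0) 0 rfl
  have hWV : ∀ y, W (V y) = y := congrFun hV
  have hVW : (fun x => V (W x)) = id :=
    hcov.eq_of_comp_eq (V.continuous.comp hW.continuous) continuous_id
      (funext fun x => hWV (W x)) 0 hV0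
  let e : E ≃ₜ ℂ :=
    { toFun := W, invFun := V, left_inv := congrFun hVW, right_inv := hWV,
      continuous_toFun := hW.continuous, continuous_invFun := V.continuous }
  exact ⟨V, e.contDiff_symm hd hW, congrFun hVW, hWV⟩

end Vale.Agent.P205
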