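import Vale.Agent.P205.Dev
import Vale.Agent.P205.Holonomy

/-! Solving the Beltrami equation on the torus by a Neumann series in the square summable
sequences; smoothness comes from translation invariance. -/

open scoped ENNReal ComplexConjugate ContDiff Real Topology
open Complex Filter UnitAddTorus MeasureTheory

noncomputable section

namespace Vale.Agent.P205

attribute [local instance] instMeasCircle instHaarCircle instProbCircle

/-- multiplication operators on square integrable functions -/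
def Mop0 : C(T, ℂ) →L[ℂ] Lp ℂ 2 (volume : Measure T) →L[ℂ] Lp ℂ 2 (volume : Measure T) :=
  (ContinuousLinearMap.mul ℂ ℂ).holderL volume ∞ 2 2 ∘L ContinuousMap.toLp ∞ volume ℂ

lemma Mop0_toLp (Φ Ψ : C(T, ℂ)) :
    Mop0 Φ (ContinuousMap.toLp 2 volume ℂ Ψ) = ContinuousMap.toLp 2 volume ℂ (Φ * Ψ) := by
  ext1
  filter_upwards [(ContinuousLinearMap.mul ℂ ℂ).coeFn_holder (r := 2)
    (ContinuousMap.toLp ∞ (volume : Measure T) ℂ Φ) (ContinuousMap.toLp 2 volume ℂ Ψ),
    ContinuousMap.coeFn_toLp (p := ∞) (𝕜 := ℂ) (volume : Measure T) Φ,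
    ContinuousMap.coeFn_toLp (p := 2) (𝕜 := ℂ) (volume : Measure T) Ψ,
    ContinuousMap.coeFn_toLp (p := 2) (𝕜 := ℂ) (volume : Measure T) (Φ * Ψ)] with t h1 h2 h3 h4
  rw [h4]
  refine h1.trans ?_
  rw [h2, h3]
  rfl

lemma norm_Mop0 (Φ : C(T, ℂ)) (f : Lp ℂ 2 (volume : Measure T)) : ‖Mop0 Φ f‖ ≤ ‖Φ‖ * ‖f‖ := by
  refine ((ContinuousLinearMap.mul ℂ ℂ).norm_holder_apply_apply_le (r := 2)
    (ContinuousMap.toLp ∞ (volume : Measure T) ℂ Φ) f).trans ?_
  have h1 : ‖ContinuousMap.toLp ∞ (volume : Measure T) ℂ Φ‖ ≤ ‖Φ‖ := by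
    refine (ContinuousLinearMap.le_opNorm _ _).trans ?_
    have := ContinuousMap.toLp_norm_le (p := ∞) (E := ℂ) (𝕜 := ℂ) (volume : Measure T)
    simp only [ENNReal.toReal_top, inv_zero, Real.rpow_zero] at this
    exact mul_le_of_le_one_left (norm_nonneg _) this
  rw [ContinuousLinearMap.opNorm_mul, one_mul]
  gcongr

/-- the Fourier isometry -/
abbrev Fo : Lp ℂ 2 (volume : Measure T) ≃ₗᵢ[ℂ] H := (mFourierBasis (d := Fin 2)).repr

/-- multiplication operators on Fourier coefficients -/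
def Mop : C(T, ℂ) →L[ℂ] H →L[ℂ] H :=
  (Fo.toContinuousLinearEquiv.arrowCongr Fo.toContinuousLinearEquiv).toContinuousLinearMap ∘L Mop0

lemma Mop_apply (Φ : C(T, ℂ)) (f : H) : Mop Φ f = Fo (Mop0 Φ (Fo.symm f)) := rfl

lemma Mop_J (Φ Ψ : C(T, ℂ)) : Mop Φ (J Ψ) = J (Φ * Ψ) := by
  change Fo (Mop0 Φ (Fo.symm (Fo _))) = Fo _
  rw [Fo.symm_apply_apply]
  exact congrArg Fo (Mop0_toLp Φ Ψ)

lemma norm_Mop (Φ : C(T, ℂ)) (f : H) : ‖Mop Φ f‖ ≤ ‖Φ‖ * ‖f‖ := by
  rw [Mop_apply, Fo.norm_map, ← Fo.symm.norm_map f]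
  exact norm_Mop0 _ _

lemma J_io (a : A) (k : K) : J (io a) k = co k a := cf_io k a

/-- translation on Fourier coefficients -/
def TH (h : E) : H →L[ℂ] H :=
  lp.mapCLM 2 (fun k => ContinuousLinearMap.mul ℂ ℂ (ch k h)) zero_le_one
    (fun k => by simp [norm_ch])

lemma TH_apply (h : E) (f : H) (k : K) : TH h f k = ch k h * f k := rfl

lemma TH_J (h : E) (a : A) : TH h (J (io a)) = J (io (tr h a)) :=
  lp.ext (funext fun k => by rw [TH_apply, J_io, J_io, co_tr])

lemma TH_Mop (h : E) (a : A) (f : H) : TH h (Mop (io a) f) = Mop (io (tr h a)) (TH h f) := by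
  have : TH h ∘L Mop (io a) = Mop (io (tr h a)) ∘L TH h := by
    refine lp.ext_continuousLinearMap (by simp) fun k => ?_
    ext1
    change TH h (Mop (io a) (lp.single 2 k 1)) = Mop (io (tr h a)) (TH h (lp.single 2 k 1))
    rw [← J_mFourier, ← io_sg, Mop_J, ← io_mul, TH_J, TH_J, Mop_J, ← io_mul]
    congr 2
    exact map_mul (trR h) _ _
  exact DFunLike.congr_fun this f

lemma rapid_of_TH {f : H} (hf : ContDiff ℝ ∞ fun h : E => TH h f) : Rapid fun k => f k := by
  refine rapid_of_coord fun n j => ?_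
  have h1 : ContDiff ℝ ∞ fun t : ℝ => TH (t • Pi.single j 1) f :=
    hf.comp (contDiff_id.smul contDiff_const)
  refine ⟨‖iteratedFDeriv ℝ n (fun t : ℝ => TH (t • Pi.single j 1) f) 0‖, fun k => ?_⟩
  let e : H →L[ℝ] ℂ := (lp.evalCLM ℂ (fun _ : K => ℂ) 2 k).restrictScalars ℝ
  have he : ‖e‖ ≤ 1 := ContinuousLinearMap.opNorm_le_bound _ zero_le_one fun g => by
    rw [one_mul]; exact lp.norm_apply_le_norm (by simp) g k
  have h2 := e.norm_iteratedFDeriv_comp_left (x := 0) (n := n) h1.contDiffAt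
    (by exact_mod_cast le_top)
  have h3 : (e ∘ fun t : ℝ => TH (t • Pi.single j 1) f) =
      fun t : ℝ => exp (((2 * π * k j) * t : ℝ) * I) • f k := by
    ext t
    change TH _ f k = _
    rw [TH_apply, ch_eq, map_smul, ph_single, smul_eq_mul, smul_eq_mul, mul_comm t]
  rw [h3, norm_iteratedFDeriv_eq_norm_iteratedDeriv, iteratedDeriv_cis] at h2
  simp only [norm_smul, norm_mul, norm_pow, norm_exp_ofReal_mul_I, norm_I, mul_one, norm_real,
    Real.norm_eq_abs, abs_two, abs_of_pos Real.pi_pos] at h2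
  refine le_trans ?_ (h2.trans (mul_le_of_le_one_left (norm_nonneg _) he))
  gcongr
  have := Real.pi_gt_three
  nlinarith [abs_nonneg (k j : ℝ)]

namespace Lat

variable (L : Lat)

/-- the modified Beurling transform -/
def Sb : H →L[ℝ] H :=
  lp.mapCLM 2 (fun k => if k = 0 then -conjCLE.toContinuousLinearMap else
    ContinuousLinearMap.mul ℝ ℂ (L.xi k / L.eta k)) zero_le_one (fun k => by
      split_ifs
      · simp
      · rw [ContinuousLinearMap.opNorm_mul_apply, norm_div, norm_eta]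
        exact div_self_le_one _)

lemma Sb_apply (f : H) (k : K) :
    L.Sb f k = if k = 0 then -conj (f k) else L.xi k / L.eta k * f k := by
  change (if k = 0 then -conjCLE.toContinuousLinearMap else
    ContinuousLinearMap.mul ℝ ℂ (L.xi k / L.eta k)) (f k) = _
  split_ifs <;> rfl

lemma norm_Sb : ‖L.Sb‖ ≤ 1 := lp.norm_mapCLM_le _ _ _ _

lemma TH_Sb (h : E) (f : H) : TH h (L.Sb f) = L.Sb (TH h f) :=
  lp.ext (funext fun k => by
    rw [TH_apply, Sb_apply, Sb_apply, TH_apply]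
    split_ifs with hk
    · simp [hk, ch_zero']
    · ring)

/-- multiplication after the modified Beurling transform -/
def Bop : A →L[ℝ] H →L[ℝ] H :=
  (ContinuousLinearMap.compL ℝ H H H).flip L.Sb ∘L
    ContinuousLinearMap.restrictScalarsL ℂ H H ℝ ℝ ∘L (Mop ∘L io).restrictScalars ℝ

lemma Bop_apply (a : A) (f : H) : L.Bop a f = Mop (io a) (L.Sb f) := rfl

lemma norm_Bop (a : A) : ‖L.Bop a‖ ≤ ‖io a‖ := by
  refine ContinuousLinearMap.opNorm_le_bound _ (norm_nonneg _) fun f => ?_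
  rw [Bop_apply]
  refine (norm_Mop _ _).trans ?_
  gcongr
  exact (L.Sb.le_opNorm f).trans (mul_le_of_le_one_left (norm_nonneg _) L.norm_Sb)

lemma contDiff_solve {B : E → H →L[ℝ] H} {R : E → H} (hB : ContDiff ℝ ∞ B) (hR : ContDiff ℝ ∞ R)
    (hn : ∀ h, ‖B h‖ < 1) : ContDiff ℝ ∞ fun h => Ring.inverse (1 - B h) (R h) := by
  refine ContDiff.clm_apply (contDiff_iff_contDiffAt.2 fun h => ?_) hR
  have h1 : ContDiffAt ℝ ∞ Ring.inverse (1 - B h) :=
    contDiffAt_ringInverse ℝ (Units.oneSub _ (hn h))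
  exact h1.comp h (f := fun h => 1 - B h) (contDiff_const.sub hB).contDiffAt

lemma exists_beltrami {m r : A} (hm : ContDiff ℝ ∞ (ev m)) (hr : ContDiff ℝ ∞ (ev r))
    (hm1 : ∀ x, ‖ev m x‖ < 1) :
    ∃ f : A, ContDiff ℝ ∞ (ev f) ∧
      f = m * (mu (fun k => L.xi k / L.eta k) f - conj (co 0 f) • (1 : A)) + r := by
  have ht : ∀ a : A, ContDiff ℝ ∞ (ev a) → ContDiff ℝ ∞ fun h : E => tr h a := fun a ha => by
    have h1 := contDiff_tr (rapid_toA _ ha (ev_per a))
    rwa [toA_ev a ha] at h1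
  let B : E → H →L[ℝ] H := fun h => L.Bop (tr h m)
  have hBc : ContDiff ℝ ∞ B := L.Bop.contDiff.comp (ht m hm)
  have hBn : ∀ h, ‖B h‖ < 1 := fun h => by
    have h1 : ‖io (tr h m)‖ < 1 := (ContinuousMap.norm_lt_iff_of_nonempty _).2 fun t => by
      obtain ⟨x, rfl⟩ := pr_surj t
      rw [← ev_apply, ev_tr]; exact hm1 _
    exact (L.norm_Bop _).trans_lt h1
  let F : E → H := fun h => Ring.inverse (1 - B h) (J (io (tr h r)))
  have hFc : ContDiff ℝ ∞ F :=
    contDiff_solve hBc (((J ∘L io).restrictScalars ℝ).contDiff.comp (ht r hr)) hBn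
  have hu : ∀ h, IsUnit (1 - B h) := fun h => (Units.oneSub _ (hBn h)).isUnit
  have hF0 : F 0 - Mop (io m) (L.Sb (F 0)) = J (io r) := by
    have := DFunLike.congr_fun (Ring.mul_inverse_cancel _ (hu 0)) (J (io (tr 0 r)))
    simpa [B, F, tr_zero, Bop_apply] using this
  have hFh : ∀ h, TH h (F 0) = F h := fun h => by
    have h1 : (1 - B h) (TH h (F 0)) = J (io (tr h r)) := by
      rw [← TH_J, ← hF0, map_sub, TH_Mop, TH_Sb]; rfl
    have := DFunLike.congr_fun (Ring.inverse_mul_cancel _ (hu h)) (TH h (F 0))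
    rw [mul_apply_eq_comp, h1] at this
    exact this.symm
  have hR : Rapid fun k => F 0 k := rapid_of_TH (by simpa only [hFh] using hFc)
  let f : A := P205.mk (fun k => F 0 k) (by simpa using hR.summable 0)
  have hf : ∀ k, co k f = F 0 k := fun _ => rfl
  refine ⟨f, contDiff_ev_of_tr (contDiff_tr hR), A_ext fun k => ?_⟩
  have h1 : L.Sb (F 0) = J (io (mu (fun k => L.xi k / L.eta k) f - conj (co 0 f) • (1 : A))) :=
    lp.ext (funext fun l => by
      rw [Sb_apply, J_io, map_sub, map_smul, co_mu L.bdd_xi_div, co_one, hf, hf]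
      split_ifs with hl
      · simp [hl]
      · simp)
  rw [h1, Mop_J, ← io_mul, sub_eq_iff_eq_add'] at hF0
  rw [hf, hF0, map_add (co k), ← J_io _ k, ← J_io r k]
  rfl

theorem exists_isothermal {μ : E → ℂ} (hμ : ContDiff ℝ ∞ μ) (pμ : Per μ) (hμ1 : ∀ x, ‖μ x‖ < 1) :
    ∃ (W σ : E → ℂ) (L' : Lat), ContDiff ℝ ∞ W ∧ ContDiff ℝ ∞ σ ∧ Per (fun x => (σ x).re) ∧
      (∀ x k, W (x + lat k) = W x + L'.z (lat k)) ∧
      (∀ x, Function.Injective (fderiv ℝ W x)) ∧
      ∀ x v, fderiv ℝ W x v = cexp (σ x) * (L.z v + μ x * conj (L.z v)) := by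
  set m := toA μ hμ pμ with hm
  have evm : ev m = μ := ev_toA _ _ _
  set M : Sm := ⟨μ, hμ⟩ with hM
  obtain ⟨r, hr, -⟩ := L.co_d_toA (F := M) evm.symm
  obtain ⟨f, hf, ef⟩ := L.exists_beltrami (m := m) (r := r) (evm ▸ hμ) (hr ▸ Sm.smooth _)
    (evm ▸ hμ1)
  set b := co 0 f with hb
  set g := mu (fun k => L.xi k / L.eta k) f with hg
  set S0 := sm (mu (fun k => (L.eta k)⁻¹) f) (smooth_mu hf L.bdd_eta_inv) with hS0
  have dS0 : (L.d S0 : E → ℂ) = ev g := L.d_ev rfl fun k => by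
    rw [hg, co_mu L.bdd_xi_div, co_mu L.bdd_eta_inv]; ring
  have dS0' : (L.d' S0 : E → ℂ) = ev (f - b • (1 : A)) := L.d'_ev rfl fun k => by
    rw [co_mu L.bdd_eta_inv, map_sub, map_smul, co_one]
    split_ifs with hk
    · simp [hk, hb]
    · have := L.eta_ne hk
      field_simp
      simp
  let Zl : E →L[ℝ] ℂ := b • (conjCLE.toContinuousLinearMap ∘L L.z) - conj b • L.z
  have hZl : ∀ v, Zl v = b * conj (L.z v) - conj b * L.z v := fun _ => rfl
  let Zs : Sm := ⟨Zl, show ContDiff ℝ ∞ Zl from Zl.contDiff⟩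
  have hdet := L.det_ne
  have dZ : (L.d Zs : E → ℂ) = fun _ => -conj b := by
    ext x
    change _ * fderiv ℝ Zl x _ + _ * fderiv ℝ Zl x _ = _
    simp only [Zl.fderiv, hZl, z_apply]
    simp
    field_simp
    rw [det]; ring
  have dZ' : (L.d' Zs : E → ℂ) = fun _ => b := by
    ext x
    change _ * fderiv ℝ Zl x _ + _ * fderiv ℝ Zl x _ = _
    simp only [Zl.fderiv, hZl, z_apply]
    simp
    field_simp
    rw [det]; ring
  set S := S0 + Zs with hS
  have hcl : L.d' S = M * L.d S + L.d M := Subtype.ext <| by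
    have := congrArg ev ef
    rw [map_add, map_mul, evm, ← hr, map_sub, ev_smul, map_one] at this
    rw [hS, map_add, map_add]
    simp only [Subalgebra.coe_add, MulMemClass.coe_mul, dS0, dS0', dZ, dZ', map_sub, ev_smul,
      map_one]
    ext x
    have h1 := congrFun this x
    simp only [Pi.add_apply, Pi.mul_apply, Pi.sub_apply, Pi.smul_apply, Pi.one_apply,
      smul_eq_mul, mul_one] at h1 ⊢
    rw [h1]
    ring
  obtain ⟨W, hW, dW⟩ := L.poincare (a := Sm.exp S) (b := Sm.exp S * M) (by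
    rw [Derivation.leibniz, d_exp, d'_exp, hcl]; simp only [smul_eq_mul]; ring)
  have dW' : ∀ x v, fderiv ℝ W x v = cexp ((S : E → ℂ) x) * (L.z v + μ x * conj (L.z v)) :=
    fun x v => by
      rw [dW]
      change _ * cexp _ + _ * (cexp _ * μ x) = _
      ring
  have hinj : ∀ x, Function.Injective (fderiv ℝ W x) := fun x =>
    (injective_iff_map_eq_zero _).2 fun v hv => by
      rw [dW', mul_eq_zero_iff_left (exp_ne_zero _), add_eq_zero_iff_eq_neg] at hv
      apply L.z_inj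
      by_contra hne
      have h1 := congrArg norm hv
      rw [norm_neg, norm_mul, RCLike.norm_conj] at h1
      have h2 := norm_pos_iff.2 hne
      nlinarith [hμ1 x]
  have hSk : ∀ x k, (S : E → ℂ) (x + lat k) = (S : E → ℂ) x + Zl (lat k) := fun x k => by
    change ev _ (x + lat k) + Zl (x + lat k) = ev _ x + Zl x + _
    rw [ev_per, map_add, add_assoc]
  have hre : ∀ v, (Zl v).re = 0 := fun v => by rw [hZl]; simp
  have hWk : ∀ x k, fderiv ℝ W (x + lat k) = cexp (Zl (lat k)) • fderiv ℝ W x := fun x k => by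
    ext1 v
    rw [smul_apply, dW', dW', hSk, pμ, Complex.exp_add, smul_eq_mul]
    ring
  have hd := hW.differentiable (by simp)
  have hχ := holonomy hd (fun k => by rw [norm_exp, hre, Real.exp_zero]) hWk
    fun x => surj_of_inj (hinj x)
  obtain ⟨L', hL'⟩ := periods hd (fun x k => by rw [hWk, hχ, one_smul])
    fun x => surj_of_inj (hinj x)
  exact ⟨W, S, L', hW, Sm.smooth S, fun x k => by simp only [hSk, add_re, hre, add_zero], hL',
    hinj, dW'⟩

end Lat

end Vale.Agent.P205
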