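import Mathlib

/-! Horizontal unit speed curves in the three-sphere with prescribed period and holonomy. -/

open scoped ComplexConjugate ContDiff Real Topology
open Complex Filter

noncomputable section

namespace Vale.Agent.P205

lemma exists_reparam {v : ℝ → ℝ} (hv : ContDiff ℝ ∞ v) (hpos : ∀ t, 0 < v t)
    (hper : Function.Periodic v 1) :
    ∃ σ : ℝ → ℝ, ContDiff ℝ ∞ σ ∧ (∀ t, HasDerivAt σ (v (σ t))⁻¹ t) ∧
      ∀ t, σ (t + ∫ x in (0 : ℝ)..1, v x) = σ t + 1 := by
  set s : ℝ → ℝ := fun t => ∫ x in (0 : ℝ)..t, v x with hs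
  have hint : ∀ a b, IntervalIntegrable v MeasureTheory.volume a b := fun a b =>
    hv.continuous.intervalIntegrable a b
  have hd : ∀ t, HasDerivAt s (v t) t := fun t =>
    (hv.continuous.integral_hasStrictDerivAt 0 t).hasDerivAt
  have hds : deriv s = v := funext fun t => (hd t).deriv
  have hsm : ContDiff ℝ ∞ s := contDiff_infty_iff_deriv.2
    ⟨fun t => (hd t).differentiableAt, hds ▸ hv⟩
  have hmono : StrictMono s := strictMono_of_deriv_pos fun t => by rw [hds]; exact hpos t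
  have hsurj : Function.Surjective s := hsm.continuous.surjective
    (hper.tendsto_atTop_intervalIntegral_of_pos' (hint 0 1) hpos one_pos)
    (hper.tendsto_atBot_intervalIntegral_of_pos' (hint 0 1) hpos one_pos)
  let e : ℝ ≃ₜ ℝ := (hmono.orderIsoOfSurjective s hsurj).toHomeomorph
  have he : (e : ℝ → ℝ) = s := rfl
  have hσ : ContDiff ℝ ∞ e.symm :=
    e.contDiff_symm_deriv (fun t => (hpos t).ne') (fun t => he ▸ hd t) (he ▸ hsm)
  refine ⟨e.symm, hσ, fun t => ?_, fun t => ?_⟩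
  · refine HasDerivAt.of_local_left_inverse e.symm.continuous.continuousAt (hd _) (hpos _).ne' ?_
    exact .of_forall fun y => e.apply_symm_apply y
  · apply e.injective
    rw [e.apply_symm_apply, he]
    have h1 := hper.intervalIntegral_add_eq (e.symm t) 0
    rw [zero_add] at h1
    rw [← h1, hs]
    simp only
    rw [← intervalIntegral.integral_add_adjacent_intervals (hint 0 (e.symm t))
      (hint (e.symm t) (e.symm t + 1))]
    congr 1
    exact (e.apply_symm_apply t).symm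

/-- squared modulus of the second coordinate -/
def hw (b d k τ : ℝ) : ℝ := b + d * Real.sin (2 * π * k * τ)

/-- its derivative -/
def hw' (d k τ : ℝ) : ℝ := d * (2 * π * k) * Real.cos (2 * π * k * τ)

/-- speed of the curve -/
def hV (b d k τ : ℝ) : ℝ :=
  √(hw' d k τ ^ 2 / (4 * hw b d k τ * (1 - hw b d k τ)) +
    16 * π ^ 2 * (hw b d k τ * (1 - hw b d k τ)))

lemma hw_bounds {b d : ℝ} (hb : 1 / 4 ≤ b) (hb' : b ≤ 3 / 4) (hd : |d| ≤ 1 / 8) (k τ : ℝ) :
    0 < hw b d k τ ∧ 0 < 1 - hw b d k τ := by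
  have : |d * Real.sin (2 * π * k * τ)| ≤ 1 / 8 := by
    rw [abs_mul]
    have := mul_le_mul hd (Real.abs_sin_le_one (2 * π * k * τ)) (abs_nonneg _) (by norm_num)
    linarith
  have := abs_le.1 this
  unfold hw
  constructor <;> linarith

lemma exists_length {b y : ℝ} (hb : 1 / 4 ≤ b) (hb' : b ≤ 3 / 4) (hy : 2 * π ≤ y) :
    ∃ (k : ℕ) (d : ℝ), 0 < k ∧ |d| ≤ 1 / 8 ∧ ∫ τ in (0 : ℝ)..1, hV b d k τ = y := by
  obtain ⟨k, hk⟩ := exists_nat_gt (8 * y)
  have hpi := Real.pi_gt_three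
  have hk0 : (0 : ℝ) < k := by linarith
  have hd : ∀ δ : ℝ, |Real.sin δ / 8| ≤ 1 / 8 := fun δ => by
    rw [abs_div, abs_of_pos (by norm_num : (0 : ℝ) < 8)]
    gcongr
    exact Real.abs_sin_le_one _
  have hc : Continuous (Function.uncurry fun δ τ : ℝ => hV b (Real.sin δ / 8) k τ) := by
    refine Continuous.sqrt (Continuous.add (Continuous.div ?_ ?_ fun p => ?_) ?_)
    · unfold hw'; fun_prop
    · unfold hw; fun_prop
    · have := hw_bounds hb hb' (hd p.1) k p.2
      have h1 := this.1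
      have h2 := this.2
      positivity
    · unfold hw; fun_prop
  have hL : Continuous fun δ : ℝ => ∫ τ in (0 : ℝ)..1, hV b (Real.sin δ / 8) k τ :=
    intervalIntegral.continuous_parametric_intervalIntegral_of_continuous' hc 0 1
  have h0 : ∫ τ in (0 : ℝ)..1, hV b (Real.sin 0 / 8) k τ ≤ y := by
    have : ∀ τ, hV b (Real.sin 0 / 8) k τ = √(16 * π ^ 2 * (b * (1 - b))) := fun τ => by
      simp [hV, hw, hw']
    simp only [this, intervalIntegral.integral_const, sub_zero, smul_eq_mul, one_mul]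
    refine le_trans (Real.sqrt_le_iff.2 ⟨by positivity, ?_⟩) hy
    have : b * (1 - b) ≤ 1 / 4 := by nlinarith [sq_nonneg (b - 1 / 2)]
    nlinarith [sq_nonneg π]
  have h1 : y ≤ ∫ τ in (0 : ℝ)..1, hV b (Real.sin (π / 2) / 8) k τ := by
    have hI : ∫ τ in (0 : ℝ)..1, π * k / 4 * Real.cos (2 * π * k * τ) ^ 2 = π * k / 8 := by
      have : ∀ τ ∈ Set.uIcc (0 : ℝ) 1, HasDerivAt
          (fun τ : ℝ => π * k / 8 * τ + Real.sin (2 * (2 * π * k * τ)) / 32)
          (π * k / 4 * Real.cos (2 * π * k * τ) ^ 2) τ := fun τ _ => by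
        have h1 : HasDerivAt (fun τ : ℝ => 2 * (2 * π * k * τ)) (2 * (2 * π * k)) τ := by
          simpa using ((hasDerivAt_id τ).const_mul (2 * π * k)).const_mul 2
        have h2 := ((hasDerivAt_id τ).const_mul (π * k / 8)).add (h1.sin.div_const 32)
        refine h2.congr_deriv ?_
        rw [Real.cos_two_mul]
        ring
      rw [intervalIntegral.integral_eq_sub_of_hasDerivAt this
        (Continuous.intervalIntegrable (by fun_prop) _ _)]
      have : Real.sin (2 * (2 * π * k * 1)) = 0 := by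
        rw [show 2 * (2 * π * k * 1) = ((4 * k : ℕ) : ℝ) * π by push_cast; ring]
        exact Real.sin_nat_mul_pi _
      rw [this]
      simp
    calc y ≤ π * k / 8 := by nlinarith
      _ = _ := hI.symm
      _ ≤ _ := by
        refine intervalIntegral.integral_mono_on zero_le_one
          (Continuous.intervalIntegrable (by fun_prop) _ _)
          ((hc.uncurry_left (π / 2)).intervalIntegrable _ _) fun τ _ => ?_
        obtain ⟨h1, h2⟩ := hw_bounds hb hb' (hd (π / 2)) k τ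
        refine Real.le_sqrt_of_sq_le ?_
        set w := hw b (Real.sin (π / 2) / 8) k τ
        have h3 : 4 * w * (1 - w) ≤ 1 := by nlinarith [sq_nonneg (w - 1 / 2)]
        have h4 : hw' (Real.sin (π / 2) / 8) k τ ^ 2 ≤
            hw' (Real.sin (π / 2) / 8) k τ ^ 2 / (4 * w * (1 - w)) :=
          le_div_self (sq_nonneg _) (by positivity) h3
        have h5 : (π * k / 4 * Real.cos (2 * π * k * τ) ^ 2) ^ 2 ≤
            hw' (Real.sin (π / 2) / 8) k τ ^ 2 := by
          simp only [hw', Real.sin_pi_div_two]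
          have := Real.cos_sq_le_one (2 * π * k * τ)
          calc _ = (π * k / 4) ^ 2 * Real.cos (2 * π * k * τ) ^ 2 * Real.cos (2 * π * k * τ) ^ 2 := by
                ring
            _ ≤ (π * k / 4) ^ 2 * Real.cos (2 * π * k * τ) ^ 2 * 1 := by gcongr
            _ = _ := by ring
        have h6 : 0 ≤ 16 * π ^ 2 * (w * (1 - w)) := by positivity
        linarith
  obtain ⟨δ, hδ⟩ := intermediate_value_univ 0 (π / 2) hL ⟨h0, h1⟩
  exact ⟨k, _, by exact_mod_cast hk0, hd δ, hδ⟩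

lemma hasDerivAt_polar {r β : ℝ → ℝ} {r' β' t : ℝ} (hr : HasDerivAt r r' t)
    (hβ : HasDerivAt β β' t) :
    HasDerivAt (fun t => (r t : ℂ) * cexp (β t * I)) ((r' + r t * β' * I) * cexp (β t * I)) t := by
  refine (hr.ofReal_comp.mul (hβ.ofReal_comp.mul_const I).cexp).congr_deriv ?_
  ring

lemma contDiff_polar {r β : ℝ → ℝ} (hr : ContDiff ℝ ∞ r) (hβ : ContDiff ℝ ∞ β) :
    ContDiff ℝ ∞ (fun t => (r t : ℂ) * cexp (β t * I)) :=
  (ofRealCLM.contDiff.comp hr).mul ((ofRealCLM.contDiff.comp hβ).mul contDiff_const).cexp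

theorem exists_hopf_curve (x : ℝ) {y : ℝ} (hy : 2 * π ≤ y) :
    ∃ g₁ g₂ g₁' g₂' : ℝ → ℂ, ContDiff ℝ ∞ g₁ ∧ ContDiff ℝ ∞ g₂ ∧
      (∀ t, HasDerivAt g₁ (g₁' t) t) ∧ (∀ t, HasDerivAt g₂ (g₂' t) t) ∧
      (∀ t, normSq (g₁ t) + normSq (g₂ t) = 1) ∧ (∀ t, normSq (g₁' t) + normSq (g₂' t) = 1) ∧
      (∀ t, conj (g₁ t) * g₁' t + conj (g₂ t) * g₂' t = 0) ∧
      (∀ t, cexp (x * I) * g₁ (t + y) = g₁ t) ∧ (∀ t, cexp (x * I) * g₂ (t + y) = g₂ t) := by
  have hpi := Real.pi_pos
  set m : ℤ := ⌈1 / 2 + x / (2 * π)⌉ with hm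
  set b : ℝ := (m - x / (2 * π)) / 2 with hbdef
  have hb : 1 / 4 ≤ b := by
    have := Int.le_ceil (1 / 2 + x / (2 * π)); rw [hbdef]; linarith
  have hb' : b ≤ 3 / 4 := by
    have := Int.ceil_lt_add_one (1 / 2 + x / (2 * π)); rw [hbdef]; linarith
  have hbx : x + 4 * π * b = m * (2 * π) := by rw [hbdef]; field_simp; ring
  obtain ⟨k, d, hk, hd, hL⟩ := exists_length hb hb' hy
  have hk0 : (0 : ℝ) < k := by exact_mod_cast hk
  have hw1 := fun τ => (hw_bounds hb hb' hd k τ).1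
  have hw2 := fun τ => (hw_bounds hb hb' hd k τ).2
  have hwc : ContDiff ℝ ∞ (hw b d k) := by unfold hw; fun_prop
  have hwc' : ContDiff ℝ ∞ (hw' d k) := by unfold hw'; fun_prop
  have hlin : ∀ τ : ℝ, HasDerivAt (fun τ : ℝ => 2 * π * k * τ) (2 * π * k) τ := fun τ => by
    simpa using (hasDerivAt_id τ).const_mul (2 * π * k)
  have hwd : ∀ τ, HasDerivAt (hw b d k) (hw' d k τ) τ := fun τ => by
    refine (((hlin τ).sin.const_mul d).const_add b).congr_deriv ?_
    unfold hw'; ring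
  have harg : ∀ τ : ℝ, 2 * π * k * (τ + 1) = 2 * π * k * τ + k * (2 * π) := fun τ => by ring
  have hwp : ∀ τ, hw b d k (τ + 1) = hw b d k τ := fun τ => by
    simp only [hw, harg, Real.sin_add_nat_mul_two_pi]
  have hwp' : ∀ τ, hw' d k (τ + 1) = hw' d k τ := fun τ => by
    simp only [hw', harg, Real.cos_add_nat_mul_two_pi]
  have hVin : ∀ τ, 0 < hw' d k τ ^ 2 / (4 * hw b d k τ * (1 - hw b d k τ)) +
      16 * π ^ 2 * (hw b d k τ * (1 - hw b d k τ)) := fun τ => by
    have h1 := hw1 τ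
    have h2 := hw2 τ
    positivity
  have hVpos : ∀ τ, 0 < hV b d k τ := fun τ => Real.sqrt_pos.2 (hVin τ)
  have hVc : ContDiff ℝ ∞ (hV b d k) := by
    refine ContDiff.sqrt (ContDiff.add (ContDiff.div (hwc'.pow 2) (by fun_prop) fun τ => ?_)
      (by fun_prop)) fun τ => (hVin τ).ne'
    have h1 := hw1 τ
    have h2 := hw2 τ
    positivity
  obtain ⟨σ, hσc, hσd, hσp⟩ := exists_reparam hVc hVpos (fun τ => by simp only [hV, hwp, hwp'])
  rw [hL] at hσp
  set β : ℝ → ℝ := fun τ => 4 * π * (b * τ - d * Real.cos (2 * π * k * τ) / (2 * π * k)) with hβ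
  have hβc : ContDiff ℝ ∞ β := by rw [hβ]; fun_prop
  have hβd : ∀ τ, HasDerivAt β (4 * π * hw b d k τ) τ := fun τ => by
    refine ((((hasDerivAt_id τ).const_mul b).sub
      (((hlin τ).cos.const_mul d).div_const (2 * π * k))).const_mul (4 * π)).congr_deriv ?_
    unfold hw; field_simp; ring
  have hβp : ∀ τ, β (τ + 1) = β τ + 4 * π * b := fun τ => by
    simp only [hβ, harg, Real.cos_add_nat_mul_two_pi]; ring
  have hr1 : ∀ τ, HasDerivAt (fun τ => √(1 - hw b d k τ))
      (-hw' d k τ / (2 * √(1 - hw b d k τ))) τ := fun τ =>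
    ((hwd τ).const_sub 1).sqrt (hw2 τ).ne'
  have hr2 : ∀ τ, HasDerivAt (fun τ => √(hw b d k τ)) (hw' d k τ / (2 * √(hw b d k τ))) τ :=
    fun τ => (hwd τ).sqrt (hw1 τ).ne'
  have hβ2 : ∀ τ, HasDerivAt (fun τ => β τ - 4 * π * τ) (4 * π * hw b d k τ - 4 * π) τ := fun τ =>
    ((hβd τ).sub ((hasDerivAt_id τ).const_mul (4 * π))).congr_deriv (by ring)
  have hexp : ∀ a : ℝ, normSq (cexp (a * I)) = 1 := fun a => by
    rw [normSq_eq_norm_sq, norm_exp_ofReal_mul_I, one_pow]
  have hexp' : ∀ a : ℝ, conj (cexp (a * I)) * cexp (a * I) = 1 := fun a => by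
    rw [← normSq_eq_conj_mul_self, hexp, ofReal_one]
  refine ⟨_, _, _, _,
    (contDiff_polar ((contDiff_const.sub hwc).sqrt fun τ => (hw2 τ).ne') hβc).comp hσc,
    (contDiff_polar (hwc.sqrt fun τ => (hw1 τ).ne')
      (hβc.sub (contDiff_const.mul contDiff_id))).comp hσc,
    fun t => (hasDerivAt_polar (hr1 (σ t)) (hβd (σ t))).scomp t (hσd t),
    fun t => (hasDerivAt_polar (hr2 (σ t)) (hβ2 (σ t))).scomp t (hσd t),
    fun t => ?_, fun t => ?_, fun t => ?_, fun t => ?_, fun t => ?_⟩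
  · simp only [Function.comp, map_mul, hexp, normSq_ofReal, mul_one,
      Real.mul_self_sqrt (hw1 _).le, Real.mul_self_sqrt (hw2 _).le]
    ring
  · have h1 := Real.sqrt_pos.2 (hw1 (σ t))
    have h2 := Real.sqrt_pos.2 (hw2 (σ t))
    have h3 := Real.sq_sqrt (hw1 (σ t)).le
    have h4 := Real.sq_sqrt (hw2 (σ t)).le
    have h5 := Real.sq_sqrt (hVin (σ t)).le
    have h6 := hVpos (σ t)
    simp only [real_smul, map_mul, hexp, normSq_ofReal, mul_one, ← ofReal_mul, normSq_add_mul_I]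
    change hV b d k (σ t) ^ 2 = _ at h5
    rw [← mul_add, ← mul_inv, inv_mul_eq_one₀ (by positivity), ← pow_two, h5]
    set p := √(hw b d k (σ t))
    set q := √(1 - hw b d k (σ t))
    rw [← h4, show 4 * π * hw b d k (σ t) - 4 * π = -(4 * π * q ^ 2) by rw [h4]; ring, ← h3]
    have h7 : p ^ 2 + q ^ 2 = 1 := by rw [h3, h4]; ring
    field_simp
    linear_combination (-4 * (hw' d k (σ t)) ^ 2 - 256 * π ^ 2 * p ^ 4 * q ^ 4) * h7
  · have h1 := Real.sqrt_pos.2 (hw1 (σ t))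
    have h2 := Real.sqrt_pos.2 (hw2 (σ t))
    have h3 := Real.sq_sqrt (hw1 (σ t)).le
    have h4 := Real.sq_sqrt (hw2 (σ t)).le
    simp only [Function.comp, real_smul, map_mul, conj_ofReal, id]
    have e1 := hexp' (β (σ t))
    have e2 := hexp' (β (σ t) - 4 * π * σ t)
    set p := √(hw b d k (σ t))
    set q := √(1 - hw b d k (σ t))
    rw [show 4 * π * hw b d k (σ t) - 4 * π = -(4 * π * q ^ 2) by rw [h4]; ring, ← h3]
    have h1' : (p : ℂ) ≠ 0 := by exact_mod_cast h1.ne'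
    have h2' : (q : ℂ) ≠ 0 := by exact_mod_cast h2.ne'
    have k1 : (q : ℂ) * ((-hw' d k (σ t) / (2 * q) : ℝ) : ℂ) = -hw' d k (σ t) / 2 := by
      push_cast; field_simp
    have k2 : (p : ℂ) * ((hw' d k (σ t) / (2 * p) : ℝ) : ℂ) = hw' d k (σ t) / 2 := by
      push_cast; field_simp
    set a1 := ((-hw' d k (σ t) / (2 * q) : ℝ) : ℂ)
    set a2 := ((hw' d k (σ t) / (2 * p) : ℝ) : ℂ)
    set E1 := cexp (β (σ t) * I)
    set E2 := cexp (((β (σ t) - 4 * π * σ t : ℝ) : ℂ) * I)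
    set iv := (((hV b d k (σ t))⁻¹ : ℝ) : ℂ)
    push_cast
    linear_combination iv * (q * (a1 + q * (4 * π * p ^ 2) * I)) * e1 +
      iv * (p * (a2 - p * (4 * π * q ^ 2) * I)) * e2 + iv * k1 + iv * k2
  · simp only [Function.comp, hσp, hwp, hβp]
    rw [mul_left_comm, ← Complex.exp_add]
    congr 1
    rw [← Complex.exp_periodic.int_mul m (β (σ t) * I)]
    congr 1
    have := congrArg (fun r : ℝ => (r : ℂ)) hbx
    push_cast at this ⊢
    linear_combination I * this
  · simp only [Function.comp, hσp, hwp, hβp, id]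
    rw [mul_left_comm, ← Complex.exp_add]
    congr 1
    rw [← Complex.exp_periodic.int_mul (m - 2) (((β (σ t) - 4 * π * σ t : ℝ) : ℂ) * I)]
    congr 1
    have := congrArg (fun r : ℝ => (r : ℂ)) hbx
    push_cast at this ⊢
    linear_combination I * this

end Vale.Agent.P205
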