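import Vale.Agent.P205.Dev
import Vale.Agent.P205.Hopf

/-! Conformally flat tori immerse isometrically in four-space. -/

open scoped ENNReal ComplexConjugate ContDiff Real Topology
open Complex Filter

noncomputable section

namespace Vale.Agent.P205

lemma normSq_pair {g₁ g₂ g₁' g₂' : ℂ} (h1 : normSq g₁ + normSq g₂ = 1)
    (h2 : normSq g₁' + normSq g₂' = 1) (h3 : conj g₁ * g₁' + conj g₂ * g₂' = 0) (a α β θ : ℝ) :
    normSq (a * (cexp (θ * I) * g₁) + cexp (θ * I) * (α * I * g₁ + β * g₁')) +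
      normSq (a * (cexp (θ * I) * g₂) + cexp (θ * I) * (α * I * g₂ + β * g₂')) =
      a ^ 2 + (α ^ 2 + β ^ 2) := by
  have he : normSq (cexp (θ * I)) = 1 := by
    rw [normSq_eq_norm_sq, norm_exp_ofReal_mul_I, one_pow]
  have e : ∀ g g' : ℂ, a * (cexp (θ * I) * g) + cexp (θ * I) * (α * I * g + β * g') =
      cexp (θ * I) * ((a + α * I) * g + β * g') := fun g g' => by ring
  rw [e, e, map_mul, map_mul, he, one_mul, one_mul]
  have h4 := congrArg re h3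
  have h5 := congrArg im h3
  simp only [normSq_apply, add_re, mul_re, conj_re, conj_im, add_im, mul_im, zero_re, zero_im,
    ofReal_re, ofReal_im, I_re, I_im] at *
  linear_combination (a ^ 2 + α ^ 2) * h1 + β ^ 2 * h2 + 2 * a * β * h4 + 2 * α * β * h5

theorem exists_hopf_surface {c : ℂ} (hc : 2 * π ≤ |c.im|) :
    ∃ Φ₁ Φ₂ : ℂ → ℂ, ContDiff ℝ ∞ Φ₁ ∧ ContDiff ℝ ∞ Φ₂ ∧
      Function.Periodic Φ₁ (2 * π) ∧ Function.Periodic Φ₂ (2 * π) ∧
      Function.Periodic Φ₁ c ∧ Function.Periodic Φ₂ c ∧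
      ∀ (w u : ℂ) (a : ℝ), normSq (a * Φ₁ w + fderiv ℝ Φ₁ w u) +
        normSq (a * Φ₂ w + fderiv ℝ Φ₂ w u) = a ^ 2 + normSq u := by
  wlog h : 2 * π ≤ c.im generalizing c
  · have h' : 2 * π ≤ (-c).im := by
      rcases le_abs.1 hc with h' | h'
      · exact absurd h' h
      · simpa using h'
    obtain ⟨Φ₁, Φ₂, h1, h2, h3, h4, h5, h6, h7⟩ := this (c := -c) (by simpa using hc) h'
    exact ⟨Φ₁, Φ₂, h1, h2, h3, h4, by simpa using h5.neg, by simpa using h6.neg, h7⟩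
  obtain ⟨g₁, g₂, g₁', g₂', s1, s2, d1, d2, n1, n2, n3, p1, p2⟩ := exists_hopf_curve c.re h
  have hs : ∀ g : ℝ → ℂ, ContDiff ℝ ∞ g →
      ContDiff ℝ ∞ fun w : ℂ => cexp (w.re * I) * g w.im := fun g hg =>
    ((ofRealCLM.contDiff.comp reCLM.contDiff).mul contDiff_const).cexp.mul
      (hg.comp imCLM.contDiff)
  have hp : ∀ g : ℝ → ℂ, Function.Periodic (fun w : ℂ => cexp (w.re * I) * g w.im) (2 * π) := by
    intro g w
    have : (w + 2 * π).re = w.re + 2 * π := by simp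
    have h' : (w + 2 * π).im = w.im := by simp
    simp only [this, h']
    push_cast
    rw [add_mul, Complex.exp_periodic]
  have hp' : ∀ g : ℝ → ℂ, (∀ t, cexp (c.re * I) * g (t + c.im) = g t) →
      Function.Periodic (fun w : ℂ => cexp (w.re * I) * g w.im) c := by
    intro g hg w
    simp only [add_re, add_im]
    push_cast
    rw [add_mul, Complex.exp_add, mul_assoc, hg]
  have hd : ∀ g g' : ℝ → ℂ, (∀ t, HasDerivAt g (g' t) t) → ∀ w u : ℂ,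
      fderiv ℝ (fun w : ℂ => cexp (w.re * I) * g w.im) w u =
        cexp (w.re * I) * (u.re * I * g w.im + u.im * g' w.im) := by
    intro g g' hg w u
    have h1 : HasFDerivAt (fun w : ℂ => (w.re : ℂ)) (ofRealCLM ∘L reCLM) w :=
      (ofRealCLM ∘L reCLM).hasFDerivAt
    have h2 := (hg w.im).hasFDerivAt.comp w imCLM.hasFDerivAt
    have h3 := ((h1.mul_const I).cexp.fun_mul h2).fderiv
    refine (DFunLike.congr_fun h3 u).trans ?_
    simp
    ring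
  refine ⟨_, _, hs _ s1, hs _ s2, hp _, hp _, hp' _ p1, hp' _ p2, fun w u a => ?_⟩
  rw [hd _ _ d1, hd _ _ d2, normSq_pair (n1 _) (n2 _) (n3 _), normSq_apply]
  ring

theorem assemble {U l : E → ℂ} (hU : ContDiff ℝ ∞ U) (hl : ContDiff ℝ ∞ l) (pl : Per l)
    {c₀ c₁ : ℂ} (pU : ∀ x k, U (x + lat k) = U x + (k 0 * c₀ + k 1 * c₁)) {ε : ℝ} (hε : 0 < ε)
    {N : ℕ} (hN : ‖c₀‖ = 2 * π * N * ε) (h0 : c₀ ≠ 0)
    (h1 : 2 * π * ε * ‖c₀‖ ≤ |(conj c₀ * c₁).im|) :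
    ∃ F₁ F₂ : E → ℂ, ContDiff ℝ ∞ F₁ ∧ ContDiff ℝ ∞ F₂ ∧ Per F₁ ∧ Per F₂ ∧
      ∀ x v (a : ℝ), fderiv ℝ l x v = a → normSq (fderiv ℝ F₁ x v) + normSq (fderiv ℝ F₂ x v) =
        normSq (cexp (l x)) * (ε ^ 2 * a ^ 2 + normSq (fderiv ℝ U x v)) := by
  have hn : 0 < ‖c₀‖ := norm_pos_iff.2 h0
  set ρ : ℂ := conj c₀ / ((ε * ‖c₀‖ : ℝ) : ℂ) with hρ
  have hc : 2 * π ≤ |(ρ * c₁).im| := by
    rw [hρ, div_mul_eq_mul_div, div_ofReal_im, abs_div, abs_of_pos (by positivity : 0 < ε * ‖c₀‖),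
      le_div_iff₀ (by positivity)]
    linarith
  have hρ0 : ρ * c₀ = N * (2 * π) := by
    rw [hρ, div_mul_eq_mul_div, ← normSq_eq_conj_mul_self, normSq_eq_norm_sq, ← ofReal_div]
    have : ‖c₀‖ ^ 2 / (ε * ‖c₀‖) = N * (2 * π) := by
      field_simp
      linarith
    rw [this]; push_cast; ring
  have hρn : ε ^ 2 * normSq ρ = 1 := by
    rw [hρ, map_div₀, normSq_conj, normSq_ofReal, normSq_eq_norm_sq]
    field_simp
  obtain ⟨Φ₁, Φ₂, s1, s2, p1, p2, q1, q2, hΦ⟩ := exists_hopf_surface hc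
  have hV : ContDiff ℝ ∞ fun x => ρ * U x := contDiff_const.mul hU
  have hs : ∀ Φ : ℂ → ℂ, ContDiff ℝ ∞ Φ →
      ContDiff ℝ ∞ fun x => (ε : ℂ) * (cexp (l x) * Φ (ρ * U x)) := fun Φ hΦ =>
    contDiff_const.mul (hl.cexp.mul (hΦ.comp hV))
  have hp : ∀ Φ : ℂ → ℂ, Function.Periodic Φ (2 * π) → Function.Periodic Φ (ρ * c₁) →
      Per fun x => (ε : ℂ) * (cexp (l x) * Φ (ρ * U x)) := by
    intro Φ p q x k
    simp only [pl x k, pU x k]
    have : ρ * (U x + (k 0 * c₀ + k 1 * c₁)) =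
        ρ * U x + ((k 0 * N : ℤ) : ℂ) * (2 * π) + (k 1 : ℂ) * (ρ * c₁) := by
      push_cast
      linear_combination (k 0 : ℂ) * hρ0
    rw [this, q.int_mul, p.int_mul]
  have hd : ∀ Φ : ℂ → ℂ, ContDiff ℝ ∞ Φ → ∀ x v,
      fderiv ℝ (fun x => (ε : ℂ) * (cexp (l x) * Φ (ρ * U x))) x v =
        ε * cexp (l x) * (fderiv ℝ l x v * Φ (ρ * U x) +
          fderiv ℝ Φ (ρ * U x) (ρ * fderiv ℝ U x v)) := by
    intro Φ hΦ x v
    have h1 := (hl.differentiable (by simp) x).hasFDerivAt.cexp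
    have h2 := (hU.differentiable (by simp) x).hasFDerivAt.const_mul ρ
    have h3 := (hΦ.differentiable (by simp) (ρ * U x)).hasFDerivAt.comp x h2
    have h4 := ((h1.fun_mul h3).const_mul (ε : ℂ)).fderiv
    refine (DFunLike.congr_fun h4 v).trans ?_
    simp
    ring
  refine ⟨_, _, hs _ s1, hs _ s2, hp _ p1 q1, hp _ p2 q2, fun x v a ha => ?_⟩
  rw [hd _ s1, hd _ s2, ha, map_mul normSq (ε * cexp (l x)), map_mul normSq (ε * cexp (l x)),
    ← mul_add, hΦ, map_mul, map_mul, normSq_ofReal]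
  linear_combination normSq (cexp (l x)) * normSq (fderiv ℝ U x v) * hρn

namespace Lat

variable (L : Lat)

lemma im_ne : (conj (L.w 0) * L.w 1).im ≠ 0 := by
  intro h
  apply L.ne
  have := conj_eq_iff_im.2 h
  rw [map_mul, conj_conj] at this
  rw [this, sub_self]

lemma w_ne : L.w 0 ≠ 0 := by
  intro h
  apply L.im_ne
  simp [h]

theorem conformal {φ : E → ℝ} (hφ : ContDiff ℝ ∞ φ) (pφ : Per φ) :
    ∃ F₁ F₂ : E → ℂ, ContDiff ℝ ∞ F₁ ∧ ContDiff ℝ ∞ F₂ ∧ Per F₁ ∧ Per F₂ ∧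
      ∀ x v, normSq (fderiv ℝ F₁ x v) + normSq (fderiv ℝ F₂ x v) =
        Real.exp (2 * φ x) * normSq (L.z v) := by
  have hφc : ContDiff ℝ ∞ fun x => (φ x : ℂ) := ofRealCLM.contDiff.comp hφ
  have pφc : Per fun x => (φ x : ℂ) := fun x k => by simp only [pφ x k]
  set a := toA _ hφc pφc with ha
  have eva : ev a = fun x => (φ x : ℂ) := ev_toA _ _ _
  have sa : st a = a := ev_inj (by ext x; rw [ev_st, eva]; simp)
  obtain ⟨a1, ha1, ha1'⟩ := L.co_d'_toA (F := ⟨_, hφc⟩) eva.symm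
  obtain ⟨a2, ha2, ha2'⟩ := L.co_d_toA ha1
  set ψ := a2 + a2 with hψ
  have cψ : ∀ k, co k ψ = 2 * L.xi k * L.eta k * co k a := fun k => by
    rw [hψ, map_add, ha2', ha1']; ring
  have hψs : ContDiff ℝ ∞ (ev ψ) := by
    rw [hψ, map_add, ← ha2]; exact (Sm.smooth _).add (Sm.smooth _)
  have sψ : st ψ = ψ := A_ext fun k => by
    rw [co_st, cψ, cψ, map_mul, map_mul, map_mul, conj_xi, conj_eta, ← co_st, sa, map_ofNat]
    ring
  have gψ : L.G 0 0 ψ = a - co 0 a • (1 : A) := A_ext fun k => by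
    rw [G, co_mu (L.bdd_Gs (by omega)), cψ, map_sub, map_smul, co_one, Gs]
    split_ifs with hk
    · simp [hk]
    · have := L.xi_ne hk
      have := L.eta_ne hk
      field_simp
      simp
  have hψt : ContDiff ℝ ∞ fun h : E => tr h ψ := by
    have h1 := contDiff_tr (rapid_toA _ hψs (ev_per ψ))
    rwa [toA_ev ψ hψs] at h1
  obtain ⟨δ, hδ, S, hS0, hS⟩ := L.exists_solution hψt sψ
  set p : ℝ → ℂ := fun ε => co 0 (L.pA ψ (ε ^ 2) (S (ε ^ 2))) with hp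
  set q : ℝ → ℂ := fun ε => co 0 (L.qA ψ (ε ^ 2) (S (ε ^ 2))) with hq
  have hSc : ∀ ε : ℝ, |ε ^ 2| < δ → ContinuousAt (fun ε : ℝ => (ε ^ 2, S (ε ^ 2))) ε :=
    fun ε hε => (by fun_prop : ContinuousAt (fun ε : ℝ => ε ^ 2) ε).prodMk
      (ContinuousAt.comp (f := fun ε : ℝ => ε ^ 2) (hS _ hε).1 (by fun_prop))
  have hpc : ∀ ε : ℝ, |ε ^ 2| < δ → ContinuousAt p ε := fun ε hε =>
    ContinuousAt.comp (g := fun z : ℝ × A × A × A => co 0 (L.pA ψ z.1 z.2))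
      (f := fun ε : ℝ => (ε ^ 2, S (ε ^ 2)))
      ((co 0).continuous.comp (L.continuous_pA ψ)).continuousAt (hSc ε hε)
  have hqc : ∀ ε : ℝ, |ε ^ 2| < δ → ContinuousAt q ε := fun ε hε =>
    ContinuousAt.comp (g := fun z : ℝ × A × A × A => co 0 (L.qA ψ z.1 z.2))
      (f := fun ε : ℝ => (ε ^ 2, S (ε ^ 2)))
      ((co 0).continuous.comp (L.continuous_qA ψ)).continuousAt (hSc ε hε)
  have hp0 : p 0 = 1 := by simp [hp, hS0, pA_zero, co_one]
  have hq0 : q 0 = 0 := by simp [hq, hS0, qA_zero]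
  set c : Fin 2 → ℝ → ℂ := fun j ε => p ε * L.w j + q ε * conj (L.w j) with hc
  have hcc : ∀ j (ε : ℝ), |ε ^ 2| < δ → ContinuousAt (c j) ε := fun j ε hε =>
    ((hpc ε hε).mul continuousAt_const).add ((hqc ε hε).mul continuousAt_const)
  have hc0 : ∀ j, c j 0 = L.w j := fun j => by simp [hc, hp0, hq0]
  have h00 : |(0 : ℝ) ^ 2| < δ := by simpa using hδ
  have ev1 : ∀ᶠ ε in 𝓝 (0 : ℝ), |ε ^ 2| < δ :=
    (by fun_prop : ContinuousAt (fun ε : ℝ => |ε ^ 2|) 0).eventually_lt continuousAt_const h00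
  have ev2 : ∀ᶠ ε in 𝓝 (0 : ℝ), ‖q ε‖ < ‖p ε‖ :=
    (hqc 0 h00).norm.eventually_lt (hpc 0 h00).norm (by simp [hp0, hq0])
  have ev3 : ∀ᶠ ε in 𝓝 (0 : ℝ), c 0 ε ≠ 0 :=
    (hcc 0 0 h00).eventually_ne (by rw [hc0]; exact L.w_ne)
  have ev4 : ∀ᶠ ε in 𝓝 (0 : ℝ), 2 * π * ε * ‖c 0 ε‖ < |(conj (c 0 ε) * c 1 ε).im| := by
    have h1 := hcc 0 0 h00
    have h2 := hcc 1 0 h00
    refine ContinuousAt.eventually_lt (by fun_prop) ?_ (by simpa [hc0] using L.im_ne)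
    exact (continuous_im.continuousAt.comp
      ((continuous_conj.continuousAt.comp h1).mul h2)).abs
  obtain ⟨r, hr, hr'⟩ := Metric.eventually_nhds_iff.1 (ev1.and (ev2.and (ev3.and ev4)))
  have hI : ∀ ε ∈ Set.Icc (0 : ℝ) (r / 2), dist ε 0 < r := fun ε hε => by
    rw [Real.dist_eq, sub_zero, abs_of_nonneg hε.1]; linarith [hε.2]
  obtain ⟨N, hN⟩ := exists_nat_gt (‖c 0 (r / 2)‖ / (2 * π * (r / 2)))
  rw [div_lt_iff₀ (by positivity)] at hN
  have hcont : ContinuousOn (fun ε => ‖c 0 ε‖ - 2 * π * N * ε) (Set.Icc 0 (r / 2)) :=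
    fun ε hε => (((hcc 0 ε (hr' (hI ε hε)).1).norm).sub (by fun_prop)).continuousWithinAt
  obtain ⟨ε, hε, hε'⟩ := intermediate_value_Icc' (by positivity : (0 : ℝ) ≤ r / 2) hcont
    (show (0 : ℝ) ∈ _ from ⟨by linarith, by simp⟩)
  obtain ⟨k1, k2, k3, k4⟩ := hr' (hI ε hε)
  simp only at hε'
  have hε0 : 0 < ε := by
    rcases hε.1.eq_or_lt with h | h
    · exfalso
      apply k3
      rw [← h] at hε' ⊢
      simpa using hε'
    · exact h
  obtain ⟨-, m1, m2, m3⟩ := hS _ k1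
  have hsm : ∀ pr : (A × A × A) →L[ℝ] A, (∀ (σ : A →+* A) X, pr (act σ X) = σ (pr X)) →
      ContDiff ℝ ∞ (ev (pr (S (ε ^ 2)))) := fun pr hpr => by
    refine contDiff_ev_of_tr (contDiff_tr_of_at ?_)
    have := pr.contDiff.contDiffAt.comp 0 m3
    simpa only [Function.comp_def, hpr, trR_apply] using this
  obtain ⟨U, l, hU, hl, pl, pU, hUl⟩ := L.developing hψs sψ m1 m2
    (hsm (.fst ℝ _ _) fun _ _ => rfl) (hsm (.fst ℝ _ _ ∘L .snd ℝ _ _) fun _ _ => rfl)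
    (hsm (.snd ℝ _ _ ∘L .snd ℝ _ _) fun _ _ => rfl) k2
  obtain ⟨F₁, F₂, s1, s2, p1, p2, hF⟩ := assemble hU hl pl (c₀ := c 0 ε) (c₁ := c 1 ε)
    (fun x k => by
      rw [pU, z_apply]
      simp only [hc, lat, map_add, map_mul, conj_ofReal, hp, hq]
      push_cast
      ring) hε0 (N := N) (by linarith) k3 k4.le
  set κ := cexp (co 0 a) with hκ
  have hd : ∀ F : E → ℂ, ContDiff ℝ ∞ F → ∀ x v,
      fderiv ℝ (fun x => κ * F x) x v = κ * fderiv ℝ F x v := fun F hF x v => by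
    rw [((hF.differentiable (by simp) x).hasFDerivAt.const_mul κ).fderiv]; rfl
  refine ⟨fun x => κ * F₁ x, fun x => κ * F₂ x, contDiff_const.mul s1, contDiff_const.mul s2,
    fun x k => by simp only [p1 x k], fun x k => by simp only [p2 x k], fun x v => ?_⟩
  obtain ⟨b, hb, hb'⟩ := hUl x v
  rw [hd _ s1, hd _ s2, map_mul, map_mul, ← mul_add, hF x v b hb, hb', ← mul_assoc, ← map_mul, hκ,
    ← Complex.exp_add, gψ, map_sub, ev_smul, eva, map_one]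
  congr 1
  rw [normSq_eq_norm_sq, norm_exp, ← Real.exp_nat_mul]
  simp

end Lat

end Vale.Agent.P205
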