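import Vale.Agent.P205.Solve

/-! The developing map of the flat metric attached to a solution of the curvature equation. -/

open scoped ENNReal ComplexConjugate ContDiff Real Topology
open Complex Filter

noncomputable section

namespace Vale.Agent.P205

lemma smooth_mu {a : A} (h : ContDiff ℝ ∞ (ev a)) {m : K → ℂ} (hm : Bdd m) :
    ContDiff ℝ ∞ (ev (mu m a)) := by
  have h1 := contDiff_tr (rapid_toA _ h (ev_per a))
  rw [toA_ev a h] at h1
  exact contDiff_ev_of_tr (contDiff_tr_mu h1 hm)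

/-- an element with smooth values as a smooth function -/
def sm (a : A) (h : ContDiff ℝ ∞ (ev a)) : Sm := ⟨ev a, h⟩

@[simp] lemma coe_sm (a : A) (h : ContDiff ℝ ∞ (ev a)) : (sm a h : E → ℂ) = ev a := rfl

lemma co_one (k : K) : co k (1 : A) = if k = 0 then 1 else 0 := co_sg k 0

lemma ev_rsmul (s : ℝ) (a : A) : ev (s • a) = (s : ℂ) • ev a := by
  rw [← Complex.coe_smul, ev_smul]

lemma st_rsmul (s : ℝ) (a : A) : st (s • a) = s • st a := ev_inj (by
  ext x
  simp [ev_rsmul, ev_st])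

lemma st_exp (a : A) : st (NormedSpace.exp a) = NormedSpace.exp (st a) :=
  NormedSpace.map_exp st st_isometry.continuous a

namespace Lat

variable (L : Lat)

lemma smooth_G {a : A} (h : ContDiff ℝ ∞ (ev a)) {i j : ℕ} (hij : i + j ≤ 2) :
    ContDiff ℝ ∞ (ev (L.G i j a)) := smooth_mu h (L.bdd_Gs hij)

lemma d_G {a : A} (h : ContDiff ℝ ∞ (ev a)) {i j : ℕ} (hij : i + 1 + j ≤ 2) :
    L.d (sm (L.G i j a) (L.smooth_G h (by omega))) = sm (L.G (i + 1) j a) (L.smooth_G h hij) :=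
  Subtype.ext (L.d_ev rfl (L.co_G_left hij a))

lemma d'_G {a : A} (h : ContDiff ℝ ∞ (ev a)) {i j : ℕ} (hij : i + (j + 1) ≤ 2) :
    L.d' (sm (L.G i j a) (L.smooth_G h (by omega))) = sm (L.G i (j + 1) a) (L.smooth_G h hij) :=
  Subtype.ext (L.d'_ev rfl (L.co_G_right hij a))

/-- primitive with respect to `d` -/
def prim : A →L[ℂ] A := mu fun k => (L.xi k)⁻¹

@[fun_prop] lemma continuous_prim : Continuous L.prim := L.prim.continuous

lemma d_prim {a : A} (h : ContDiff ℝ ∞ (ev a)) :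
    (L.d (sm (L.prim a) (smooth_mu h L.bdd_xi_inv)) : E → ℂ) = ev (a - co 0 a • (1 : A)) := by
  refine L.d_ev rfl fun k => ?_
  rw [prim, co_mu L.bdd_xi_inv, map_sub, map_smul, co_one]
  split_ifs with hk
  · simp [hk]
  · have := L.xi_ne hk
    field_simp
    simp

lemma d'_prim {a b : A} (h : ContDiff ℝ ∞ (ev a))
    (hab : ∀ k, L.eta k * co k a = L.xi k * co k b) :
    (L.d' (sm (L.prim a) (smooth_mu h L.bdd_xi_inv)) : E → ℂ) = ev (b - co 0 b • (1 : A)) := by
  refine L.d'_ev rfl fun k => ?_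
  rw [prim, co_mu L.bdd_xi_inv, map_sub, map_smul, co_one]
  split_ifs with hk
  · simp [hk]
  · have := L.xi_ne hk
    field_simp
    simp [hab k, mul_comm]

lemma co_d_toA {F : Sm} {a : A} (hF : (F : E → ℂ) = ev a) :
    ∃ b : A, (L.d F : E → ℂ) = ev b ∧ ∀ k, co k b = L.xi k * co k a := by
  have h1 := ev_toA _ (Sm.smooth (L.d F)) (L.per_d (hF ▸ ev_per a))
  exact ⟨_, h1.symm, L.co_d hF h1.symm⟩

lemma co_d'_toA {F : Sm} {a : A} (hF : (F : E → ℂ) = ev a) :
    ∃ b : A, (L.d' F : E → ℂ) = ev b ∧ ∀ k, co k b = L.eta k * co k a := by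
  have h1 := ev_toA _ (Sm.smooth (L.d' F)) (L.per_d' (hF ▸ ev_per a))
  exact ⟨_, h1.symm, L.co_d' hF h1.symm⟩

/-- connection coefficient -/
def W (ψ : A) (X : A × A × A) : A :=
  fW X.2.1 X.2.2 (L.G 0 1 X.1) (L.G 1 0 (ψ + X.1)) (L.G 0 1 (ψ + X.1)) (L.G 1 1 (ψ + X.1))
    (L.G 0 2 (ψ + X.1))

/-- conjugate connection coefficient -/
def W' (ψ : A) (X : A × A × A) : A :=
  fW X.2.1 X.2.2 (L.G 1 0 X.1) (L.G 0 1 (ψ + X.1)) (L.G 1 0 (ψ + X.1)) (L.G 1 1 (ψ + X.1))
    (L.G 2 0 (ψ + X.1))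

/-- the rotating frame -/
def P (ψ : A) (X : A × A × A) : A := NormedSpace.exp (-L.G 0 0 X.1 + L.prim (-L.W' ψ X))

/-- inverse of `1 + t l1 l2` -/
def V (ψ : A) (s : ℝ) (X : A × A × A) : A :=
  1 - s • (NormedSpace.exp (2 * L.G 0 0 X.1) * L.G 1 0 (ψ + X.1) * L.G 0 1 (ψ + X.1) *
    (1 + X.2.1 * L.G 1 0 (ψ + X.1) * L.G 0 1 (ψ + X.1)))

/-- first derivative of the developing map -/
def pA (ψ : A) (s : ℝ) (X : A × A × A) : A := L.P ψ X * L.V ψ s X

/-- second derivative of the developing map -/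
def qA (ψ : A) (s : ℝ) (X : A × A × A) : A :=
  L.P ψ X * -(X.2.1 * L.V ψ s X * L.G 0 1 (ψ + X.1) ^ 2)

@[fun_prop] lemma continuous_G (a b : ℕ) : Continuous (L.G a b) := (L.G a b).continuous

lemma continuous_pA (ψ : A) : Continuous fun z : ℝ × A × A × A => L.pA ψ z.1 z.2 := by
  unfold pA P V W' fW
  fun_prop

lemma continuous_qA (ψ : A) : Continuous fun z : ℝ × A × A × A => L.qA ψ z.1 z.2 := by
  unfold qA P V W' fW
  fun_prop

lemma pA_zero (ψ : A) : L.pA ψ 0 (0, 0, 1) = 1 := by simp [pA, P, V, W', fW]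

lemma qA_zero (ψ : A) : L.qA ψ 0 (0, 0, 1) = 0 := by simp [qA]

theorem developing {ψ : A} (hψ : ContDiff ℝ ∞ (ev ψ)) (hψ' : st ψ = ψ) {s : ℝ} {X : A × A × A}
    (hX : X = (0, 0, 1) + s • L.Nl ψ X) (hst : act st X = X) (hf : ContDiff ℝ ∞ (ev X.1))
    (ht : ContDiff ℝ ∞ (ev X.2.1)) (hy : ContDiff ℝ ∞ (ev X.2.2))
    (hpq : ‖co 0 (L.qA ψ s X)‖ < ‖co 0 (L.pA ψ s X)‖) :
    ∃ (U : E → ℂ) (l : E → ℂ), ContDiff ℝ ∞ U ∧ ContDiff ℝ ∞ l ∧ Per l ∧
      (∀ x k, U (x + lat k) = U x + (co 0 (L.pA ψ s X) * L.z (lat k) +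
        co 0 (L.qA ψ s X) * conj (L.z (lat k)))) ∧
      ∀ x v, ∃ a : ℝ, fderiv ℝ l x v = a ∧ normSq (cexp (l x)) * (s * a ^ 2 + normSq (fderiv ℝ U x v)) =
        normSq (cexp (ev (L.G 0 0 ψ) x)) * normSq (L.z v) := by
  obtain ⟨f, t, y⟩ := X
  simp only at hf ht hy
  simp only [Nl, Prod.smul_mk, Prod.mk_add_mk, zero_add, Prod.mk.injEq] at hX
  obtain ⟨e1, e2, e3⟩ := hX
  simp only [act, Prod.mk.injEq] at hst
  obtain ⟨sf, st', sy⟩ := hst
  have hl : ContDiff ℝ ∞ (ev (ψ + f)) := by rw [map_add]; exact hψ.add hf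
  have sl : st (ψ + f) = ψ + f := by rw [map_add, hψ', sf]
  -- smooth functions
  set T := sm t ht with hT
  set Y := sm y hy with hY
  set N0 := sm (L.G 0 0 f) (L.smooth_G hf (by omega)) with hN0
  set N1 := sm (L.G 1 0 f) (L.smooth_G hf (by omega)) with hN1
  set N2 := sm (L.G 0 1 f) (L.smooth_G hf (by omega)) with hN2
  set N12 := sm (L.G 1 1 f) (L.smooth_G hf (by omega)) with hN12
  set L0 := sm (L.G 0 0 (ψ + f)) (L.smooth_G hl (by omega)) with hL0
  set L1 := sm (L.G 1 0 (ψ + f)) (L.smooth_G hl (by omega)) with hL1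
  set L2 := sm (L.G 0 1 (ψ + f)) (L.smooth_G hl (by omega)) with hL2
  set L11 := sm (L.G 2 0 (ψ + f)) (L.smooth_G hl (by omega)) with hL11
  set L12 := sm (L.G 1 1 (ψ + f)) (L.smooth_G hl (by omega)) with hL12
  set L22 := sm (L.G 0 2 (ψ + f)) (L.smooth_G hl (by omega)) with hL22
  set Ee := Sm.exp (2 * N0) with hEe
  set S : Sm := algebraMap ℂ Sm s with hS
  have cEe : (Ee : E → ℂ) = ev (NormedSpace.exp (2 * L.G 0 0 f)) := by
    ext x; rw [ev_exp, map_mul, map_ofNat]; rfl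
  have cS : ∀ a : A, ev (s • a) = (S : E → ℂ) * ev a := fun a => by
    rw [ev_rsmul]; ext x; rfl
  have dN0 : L.d N0 = N1 := L.d_G hf (by omega)
  have dN0' : L.d' N0 = N2 := L.d'_G hf (by omega)
  have dN2 : L.d N2 = N12 := L.d_G hf (by omega)
  have dN1' : L.d' N1 = N12 := L.d'_G hf (by omega)
  have dL0 : L.d L0 = L1 := L.d_G hl (by omega)
  have dL0' : L.d' L0 = L2 := L.d'_G hl (by omega)
  have dL1 : L.d L1 = L11 := L.d_G hl (by omega)
  have dL1' : L.d' L1 = L12 := L.d'_G hl (by omega)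
  have dL2 : L.d L2 = L12 := L.d_G hl (by omega)
  have dL2' : L.d' L2 = L22 := L.d'_G hl (by omega)
  have d3 : L.d L12 = L.d' L11 := by rw [← dL1', ← dL1, L.d_comm]
  have d3' : L.d' L12 = L.d L22 := by rw [← dL2, ← dL2', L.d_comm]
  have d2 : ∀ D : Derivation ℂ Sm Sm, D (2 * N0) = 2 * D N0 := fun D => by
    rw [two_mul, map_add, two_mul]
  have dE : L.d Ee = 2 * Ee * N1 := by rw [hEe, d_exp, d2, dN0]; ring
  have dE' : L.d' Ee = 2 * Ee * N2 := by rw [hEe, d'_exp, d2, dN0']; ring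
  have eT : T = S * Ee * (1 + T * L1 * L2) ^ 2 := Subtype.ext <| by
    have := congrArg ev e2
    rw [cS, Q, map_mul, ← cEe, ← mul_assoc] at this
    simp only [map_add ev, map_mul, map_pow, map_one] at this
    exact this
  have eY : Y * (1 - T * L1 * L2) = 1 := Subtype.ext <| by
    rw [mul_assoc, mul_assoc, ← smul_mul_assoc, ← e2] at e3
    have := congrArg ev e3
    simp only [map_add ev, map_mul, map_one] at this
    change ev y * (1 - ev t * ev _ * ev _) = 1
    linear_combination this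
  have dT := der_t L.d (L.d.map_algebraMap s) dE dL1 dL2 eT eY
  have dT' := der_t L.d' (s := S) (t := T) (y := Y) (l1 := L2) (l2 := L1) (L.d'.map_algebraMap s)
    dE' dL2' dL1'
    (by linear_combination eT) (by linear_combination eY)
  have cW : ((fW T Y N2 L1 L2 L12 L22 : Sm) : E → ℂ) = ev (L.W ψ (f, t, y)) := by
    rw [W, map_fW]; exact map_fW (Sm.val : Sm →+* (E → ℂ)) _ _ _ _ _ _ _
  have cW' : ((fW T Y N1 L2 L1 L12 L11 : Sm) : E → ℂ) = ev (L.W' ψ (f, t, y)) := by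
    rw [W', map_fW]; exact map_fW (Sm.val : Sm →+* (E → ℂ)) _ _ _ _ _ _ _
  have cPs : ((fPsi T Y N1 N2 N12 L1 L2 L11 L12 L22 : Sm) : E → ℂ) = ev (L.Ps ψ f t y) := by
    rw [Ps, map_fPsi]; exact map_fPsi (Sm.val : Sm →+* (E → ℂ)) _ _ _ _ _ _ _ _ _ _
  have hW := der_W L.d L.d' dN2 dN1' dL1 dL1' dL2 dL2' d3 d3' dT dT' eY
  set Ws := fW T Y N2 L1 L2 L12 L22 with hWs
  set Ws' := fW T Y N1 L2 L1 L12 L11 with hWs'
  set w := L.W ψ (f, t, y) with hw
  set w' := L.W' ψ (f, t, y) with hw'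
  have hcl : ∀ k, L.eta k * co k (-w') = L.xi k * co k w := by
    obtain ⟨b, hb, hb'⟩ := L.co_d_toA cW
    obtain ⟨c, hc, hc'⟩ := L.co_d'_toA cW'
    have h1 : b + c = -(co 0 f • (1 : A)) := by
      apply ev_inj
      have h2 : f = -(t * L.Ps ψ f t y) := by
        rw [smul_neg, ← smul_mul_assoc, ← e2] at e1; exact e1
      have h3 := L.two_G11 f
      have h4 : -(co 0 f • (1 : A)) = 2 * L.G 1 1 f + t * L.Ps ψ f t y := by
        linear_combination -h3 - h2
      rw [h4, map_add, ← hb, ← hc, map_add, map_mul, map_mul, ← cPs, map_ofNat]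
      exact congrArg Subtype.val hW
    intro k
    have h2 := congrArg (co k) h1
    rw [map_add, hb', hc', map_neg, map_smul, co_one] at h2
    rw [map_neg]
    split_ifs at h2 with hk
    · simp [hk]
    · linear_combination -h2
  have sw : st w = w' := by
    rw [hw, hw', W, W', map_fW]
    simp [L.st_G, sf, st', sy, hψ']
  have hw's : ContDiff ℝ ∞ (ev (-w')) := by
    rw [map_neg, ← cW']; exact (Sm.smooth Ws').neg
  set θ := L.prim (-w') with hθ
  set Θ := sm θ (smooth_mu hw's L.bdd_xi_inv) with hΘ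
  set b := co 0 w with hb
  have hb' : co 0 w' = conj b := by rw [← sw, co_st, neg_zero]
  have dΘ : L.d Θ = -Ws' + algebraMap ℂ Sm (conj b) := Subtype.ext <| by
    rw [hΘ, L.d_prim hw's, map_neg, hb', map_sub, map_neg, ← cW', ev_smul, map_one]
    ext x; simp
  have dΘ' : L.d' Θ = Ws - algebraMap ℂ Sm b := Subtype.ext <| by
    rw [hΘ, L.d'_prim hw's hcl, map_sub, ← cW, ev_smul, map_one]
    ext x; simp [hb]
  have sθ : st θ = -θ := by
    have sw' : st w' = w := by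
      rw [← sw]; exact A_ext fun k => by simp [co_st]
    rw [hθ, prim, st_mu L.bdd_xi_inv L.bdd_eta_inv (fun k => by rw [map_inv₀, conj_xi]), map_neg st,
      sw']
    refine A_ext fun k => ?_
    rw [map_neg (co k), co_mu L.bdd_xi_inv, co_mu L.bdd_eta_inv, map_neg (co k)]
    by_cases hk : k = 0
    · simp [hk]
    · have := L.xi_ne hk
      have := L.eta_ne hk
      field_simp
      linear_combination hcl k
  set Ps := Sm.exp (-N0 + Θ) with hPs
  have cP : (Ps : E → ℂ) = ev (L.P ψ (f, t, y)) := by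
    ext x; rw [P, ev_exp, map_add, map_neg]; rfl
  set Vs : Sm := 1 - S * (Ee * L1 * L2 * (1 + T * L1 * L2)) with hVs
  have cV : (Vs : E → ℂ) = ev (L.V ψ s (f, t, y)) := by
    rw [V, map_sub, cS]
    simp only [map_mul, map_add ev, map_one, ← cEe]
    rfl
  have eV : Vs * (1 + T * L1 * L2) = 1 := by
    rw [hVs]; linear_combination L1 * L2 * eT
  have hC := der_closed L.d L.d' dL1 dL1' dL2 dL2' dT dT' eY eV
  have cp : ((Ps * Vs : Sm) : E → ℂ) = ev (L.pA ψ s (f, t, y)) := by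
    rw [pA, map_mul, ← cP, ← cV]; rfl
  have cq : ((Ps * -(T * Vs * L2 ^ 2) : Sm) : E → ℂ) = ev (L.qA ψ s (f, t, y)) := by
    rw [qA, map_mul, map_neg, map_mul, map_mul, map_pow, ← cP, ← cV]; rfl
  set p := L.pA ψ s (f, t, y) with hp
  set q := L.qA ψ s (f, t, y) with hq
  have hC2 : L.d' (Ps * Vs) + algebraMap ℂ Sm b * (Ps * Vs) =
      L.d (Ps * -(T * Vs * L2 ^ 2)) - algebraMap ℂ Sm (conj b) * (Ps * -(T * Vs * L2 ^ 2)) := by
    rw [Derivation.leibniz, Derivation.leibniz L.d, hPs, d_exp, d'_exp, ← hPs, map_add, map_add,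
      map_neg L.d N0, map_neg L.d' N0, dN0, dN0', dΘ, dΘ']
    simp only [smul_eq_mul]
    linear_combination Ps * hC
  have hC3 : ∀ k, L.eta k * co k p + b * co k p = L.xi k * co k q - conj b * co k q := by
    obtain ⟨p', hp1, hp2⟩ := L.co_d'_toA cp
    obtain ⟨q', hq1, hq2⟩ := L.co_d_toA cq
    have h1 : p' + b • p = q' - conj b • q := by
      apply ev_inj
      rw [map_add, map_sub, ev_smul, ev_smul, ← hp1, ← hq1, ← cp, ← cq]
      have := congrArg Subtype.val hC2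
      rw [← Algebra.smul_def, ← Algebra.smul_def] at this
      exact this
    intro k
    have := congrArg (co k) h1
    simpa only [map_add, map_sub, map_smul, hp2, hq2, smul_eq_mul] using this
  have hb0 : b = 0 := by
    by_contra hne
    have h1 := hC3 0
    simp only [eta_zero, xi_zero, zero_mul, zero_add, zero_sub] at h1
    have h2 := congrArg norm h1
    rw [norm_neg, norm_mul, norm_mul, RCLike.norm_conj,
      mul_right_inj' (norm_ne_zero_iff.2 hne)] at h2
    exact hpq.ne h2.symm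
  have hC4 : ∀ k, L.eta k * co k p = L.xi k * co k q := fun k => by
    simpa [hb0] using hC3 k
  have hps : ContDiff ℝ ∞ (ev p) := cp ▸ Sm.smooth _
  set U0 := sm (L.prim p) (smooth_mu hps L.bdd_xi_inv) with hU0
  have dU0 := L.d_prim hps
  have dU0' := L.d'_prim hps hC4
  rw [← hU0] at dU0 dU0'
  let Z : E →L[ℝ] ℂ := co 0 p • L.z + co 0 q • (conjCLE.toContinuousLinearMap ∘L L.z)
  have hZ : ∀ v, Z v = co 0 p * L.z v + co 0 q * conj (L.z v) := fun v => rfl
  refine ⟨fun x => (U0 : E → ℂ) x + Z x, L0, (Sm.smooth U0).add Z.contDiff, Sm.smooth L0, ev_per _,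
    fun x k => ?_, fun x v => ?_⟩
  · have : (U0 : E → ℂ) (x + lat k) = (U0 : E → ℂ) x := ev_per _ x k
    simp only
    rw [← hZ, map_add, this]; ring
  · have hdU : fderiv ℝ (fun x => (U0 : E → ℂ) x + Z x) x v =
        L.z v * ev p x + conj (L.z v) * ev q x := by
      rw [((Sm.diff U0 x).hasFDerivAt.fun_add Z.hasFDerivAt).fderiv, add_apply,
        L.fderiv_eq, dU0, dU0', hZ]
      simp [ev_smul]
      ring
    have hdl := L.fderiv_eq L0 x v
    rw [dL0, dL0'] at hdl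
    have c12 : conj ((L1 : E → ℂ) x) = (L2 : E → ℂ) x := by
      rw [hL1, hL2, coe_sm, coe_sm, ← ev_st, L.st_G (by omega), sl]
    have c21 : conj ((L2 : E → ℂ) x) = (L1 : E → ℂ) x := by rw [← c12, conj_conj]
    have cT : conj ((T : E → ℂ) x) = (T : E → ℂ) x := by rw [hT, coe_sm, ← ev_st, st']
    have cN : conj ((N0 : E → ℂ) x) = (N0 : E → ℂ) x := by
      rw [hN0, coe_sm, ← ev_st, L.st_G (by omega), sf]
    have cΘ : conj ((Θ : E → ℂ) x) = -(Θ : E → ℂ) x := by
      change conj (ev θ x) = -ev θ x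
      rw [← ev_st, sθ, map_neg]; rfl
    have eV' : (Vs : E → ℂ) x * (1 + (T : E → ℂ) x * (L1 : E → ℂ) x * (L2 : E → ℂ) x) = 1 :=
      congrFun (congrArg Subtype.val eV) x
    have eT' : (T : E → ℂ) x = s * (Ee : E → ℂ) x *
        (1 + (T : E → ℂ) x * (L1 : E → ℂ) x * (L2 : E → ℂ) x) ^ 2 :=
      congrFun (congrArg Subtype.val eT) x
    have cV' : conj ((Vs : E → ℂ) x) = (Vs : E → ℂ) x := by
      have := congrArg conj eV'
      rw [map_mul, map_add, map_mul, map_mul, map_one, c12, c21, cT] at this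
      linear_combination (Vs : E → ℂ) x * this - conj ((Vs : E → ℂ) x) * eV'
    have hP1 : (Ps : E → ℂ) x = cexp (-(N0 : E → ℂ) x + (Θ : E → ℂ) x) := rfl
    have hP2 : (Ee : E → ℂ) x * ((Ps : E → ℂ) x * conj ((Ps : E → ℂ) x)) = 1 := by
      rw [hP1, ← exp_conj, map_add, map_neg, cN, cΘ]
      change cexp (2 * (N0 : E → ℂ) x) * _ = 1
      rw [← Complex.exp_add, ← Complex.exp_add, ← Complex.exp_zero]
      congr 1; ring
    have hP3 : normSq (cexp ((L0 : E → ℂ) x)) * normSq ((Ps : E → ℂ) x) =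
        normSq (cexp (ev (L.G 0 0 ψ) x)) := by
      have h1 : (L0 : E → ℂ) x = ev (L.G 0 0 ψ) x + (N0 : E → ℂ) x := by
        rw [hL0, coe_sm, map_add, map_add]; rfl
      have h2 : ((Θ : E → ℂ) x).re = 0 := by
        have := congrArg re cΘ
        simp only [conj_re, neg_re] at this
        linarith
      rw [← map_mul, hP1, ← Complex.exp_add, h1, normSq_eq_norm_sq, normSq_eq_norm_sq, norm_exp,
        norm_exp]
      simp [h2]
    have hreal : conj (fderiv ℝ (L0 : E → ℂ) x v) = fderiv ℝ (L0 : E → ℂ) x v := by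
      rw [hdl, map_add, map_mul, map_mul, c12, c21, conj_conj, add_comm]
    obtain ⟨a, ha⟩ := conj_eq_iff_real.1 hreal
    refine ⟨a, ha, ?_⟩
    rw [← hP3, mul_assoc]
    congr 1
    apply ofReal_injective
    push_cast
    rw [← ha, hdl, hdU, ← cp, ← cq, normSq_eq_conj_mul_self, normSq_eq_conj_mul_self,
      normSq_eq_conj_mul_self]
    simp only [MulMemClass.coe_mul, NegMemClass.coe_neg, SubmonoidClass.coe_pow, Pi.mul_apply,
      Pi.neg_apply, Pi.pow_apply, map_add, map_mul, map_neg, map_pow, conj_conj, c21, cT, cV']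
    set a1 := (L1 : E → ℂ) x
    set a2 := (L2 : E → ℂ) x
    set tt := (T : E → ℂ) x
    set vv := (Vs : E → ℂ) x
    set pp := (Ps : E → ℂ) x
    set ee := (Ee : E → ℂ) x
    set zz := L.z v
    have hs : (s : ℂ) = pp * conj pp * tt * vv ^ 2 := by
      linear_combination -s * hP2 - pp * conj pp * vv ^ 2 * eT' -
        s * ee * pp * conj pp * (vv * (1 + tt * a1 * a2) + 1) * eV'
    rw [hs]
    linear_combination pp * conj pp * zz * conj zz * (vv * (1 + tt * a1 * a2) + 1) * eV'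

end Lat

end Vale.Agent.P205
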