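import Vale.Agent.P205.Periodic

/-! Evaluation, multipliers, translations and conjugation in the Wiener algebra. -/

open scoped ENNReal ComplexConjugate ContDiff Real
open UnitAddTorus MeasureTheory Complex

noncomputable section

namespace Vale.Agent.P205

/-- `io` as a ring homomorphism -/
def ioR : A →+* C(T, ℂ) where
  toFun := io
  map_one' := io_one
  map_mul' := io_mul
  map_zero' := map_zero io
  map_add' := map_add io

/-- the periodic function on the plane with given coefficients -/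
def ev : A →+* (E → ℂ) where
  toFun f x := io f (pr x)
  map_one' := by ext x; simp [io_one]
  map_mul' f g := by ext x; simp [io_mul]
  map_zero' := by ext x; simp
  map_add' f g := by ext x; simp

lemma ev_apply (f : A) (x : E) : ev f x = io f (pr x) := rfl

lemma ev_smul (c : ℂ) (f : A) : ev (c • f) = c • ev f := by ext x; simp [ev_apply]

lemma ev_inj : Function.Injective ev := fun f g h => io_inj <| by
  ext t
  obtain ⟨x, rfl⟩ := pr_surj t
  exact congrFun h x

lemma ev_cont (f : A) : Continuous (ev f) := (io f).continuous.comp pr_cont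

lemma ev_per (f : A) : Per (ev f) := per_comp_pr _

lemma ds_ev (f : A) : ds (ev f) (ev_cont f) (ev_per f) = io f := by
  ext t
  obtain ⟨x, rfl⟩ := pr_surj t
  rw [ds_pr, ev_apply]

/-- evaluation at a point -/
def evx (x : E) : A →L[ℂ] ℂ := ContinuousMap.evalCLM ℂ (pr x) ∘L io

lemma evx_apply (x : E) (f : A) : evx x f = ev f x := rfl

lemma ev_sg (k : K) (x : E) : ev (sg k) x = ch k x := by rw [ev_apply, io_sg, ch]

lemma hasSum_ev (f : A) (x : E) : HasSum (fun k => co k f * ch k x) (ev f x) := by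
  have := (evx x).hasSum (hasSum_sg f)
  simpa only [map_smul, evx_apply, ev_sg, smul_eq_mul] using this

instance : NormedAlgebra ℚ A := NormedAlgebra.restrictScalars ℚ ℂ A

lemma ev_exp (f : A) (x : E) : ev (NormedSpace.exp f) x = exp (ev f x) := by
  rw [Complex.exp_eq_exp_ℂ]
  exact NormedSpace.map_exp ((Pi.evalRingHom (fun _ : E => ℂ) x).comp ev) (evx x).continuous f

/-- bounded symbols -/
def Bdd (m : K → ℂ) : Prop := ∃ C : ℝ, ∀ k, ‖m k‖ ≤ C

lemma Bdd.mul {m m' : K → ℂ} (h : Bdd m) (h' : Bdd m') : Bdd fun k => m k * m' k := by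
  obtain ⟨C, hC⟩ := h
  obtain ⟨C', hC'⟩ := h'
  refine ⟨C * C', fun k => ?_⟩
  rw [norm_mul]
  exact mul_le_mul (hC k) (hC' k) (norm_nonneg _) ((norm_nonneg _).trans (hC k))

open Classical in
/-- the Fourier multiplier with symbol `m` -/
def mu (m : K → ℂ) : A →L[ℂ] A :=
  if h : Bdd m then lift (fun k => m k • sg k) h.choose
    (fun k => by simpa [norm_smul, norm_sg] using h.choose_spec k) else 0

lemma mu_sg {m : K → ℂ} (h : Bdd m) (k : K) : mu m (sg k) = m k • sg k := by
  rw [mu, dif_pos h, lift_sg]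

lemma co_mu {m : K → ℂ} (h : Bdd m) (k : K) (f : A) : co k (mu m f) = m k * co k f := by
  have : co k ∘L mu m = m k • co k := clm_ext fun l => by
    simp only [ContinuousLinearMap.comp_apply, mu_sg h, map_smul, co_sg,
      smul_apply]
    split_ifs with hl
    · rw [hl]
    · simp
  exact DFunLike.congr_fun this f

lemma bdd_ch (h : E) : Bdd fun k => ch k h := ⟨1, fun k => (norm_ch k h).le⟩

/-- translation -/
def tr (h : E) : A →L[ℂ] A := mu fun k => ch k h

lemma co_tr (h : E) (k : K) (f : A) : co k (tr h f) = ch k h * co k f := co_mu (bdd_ch h) k f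

lemma norm_tr (h : E) (f : A) : ‖tr h f‖ = ‖f‖ := by
  simp only [norm_eq, co_tr, norm_mul, norm_ch, one_mul]

lemma ev_tr (h : E) (f : A) (x : E) : ev (tr h f) x = ev f (x + h) := by
  refine (hasSum_ev _ x).unique ?_
  convert hasSum_ev f (x + h) using 2 with k
  rw [co_tr, ch_add]
  ring

lemma tr_zero (f : A) : tr 0 f = f := A_ext fun k => by rw [co_tr, ch_zero, one_mul]

lemma tr_add (h h' : E) (f : A) : tr (h + h') f = tr h (tr h' f) :=
  A_ext fun k => by simp only [co_tr, ch_add, mul_assoc]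

lemma tr_mu {m : K → ℂ} (hm : Bdd m) (h : E) (f : A) : tr h (mu m f) = mu m (tr h f) :=
  A_ext fun k => by simp only [co_tr, co_mu hm]; ring

/-- translation as a ring homomorphism -/
def trR (h : E) : A →+* A where
  toFun := tr h
  map_one' := ev_inj (by ext x; simp [ev_tr])
  map_mul' f g := ev_inj (by ext x; simp [ev_tr])
  map_zero' := map_zero _
  map_add' := map_add _

lemma trR_apply (h : E) (f : A) : trR h f = tr h f := rfl

/-- conjugation -/
def st0 (f : A) : A := mk (fun k => conj (co (-k) f)) (by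
  simp only [RCLike.norm_conj]
  exact (Equiv.neg K).summable_iff.2 (summable_co f))

lemma co_st0 (f : A) (k : K) : co k (st0 f) = conj (co (-k) f) := rfl

lemma ev_st0 (f : A) (x : E) : ev (st0 f) x = conj (ev f x) := by
  refine (hasSum_ev _ x).unique ?_
  have h1 := (Complex.hasSum_conj'.2 (hasSum_ev f x))
  refine (Equiv.neg K).hasSum_iff.1 ?_
  convert h1 using 2 with k
  simp [co_st0, ch_neg]

/-- conjugation as a ring homomorphism -/
def st : A →+* A where
  toFun := st0
  map_one' := ev_inj (by ext x; simp [ev_st0])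
  map_mul' f g := ev_inj (by ext x; simp [ev_st0])
  map_zero' := ev_inj (by ext x; simp [ev_st0])
  map_add' f g := ev_inj (by ext x; simp [ev_st0])

lemma co_st (f : A) (k : K) : co k (st f) = conj (co (-k) f) := rfl

lemma ev_st (f : A) (x : E) : ev (st f) x = conj (ev f x) := ev_st0 f x

lemma norm_st (f : A) : ‖st f‖ = ‖f‖ := by
  simp only [norm_eq, co_st, RCLike.norm_conj]
  exact (Equiv.neg K).tsum_eq fun k => ‖co k f‖

lemma st_isometry : Isometry st :=
  AddMonoidHomClass.isometry_of_norm st norm_st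

lemma st_mu {m m' : K → ℂ} (hm : Bdd m) (hm' : Bdd m') (h : ∀ k, m' k = conj (m (-k))) (f : A) :
    st (mu m f) = mu m' (st f) :=
  A_ext fun k => by simp only [co_st, co_mu hm, co_mu hm', h, map_mul]

/-- the coefficient sequence of a smooth periodic function -/
def toA (φ : E → ℂ) (h : ContDiff ℝ ∞ φ) (hp : Per φ) : A :=
  mk (fun k => cf k (ds φ h.continuous hp)) (by simpa using (rapid_cf h hp).summable 0)

lemma co_toA (φ : E → ℂ) (h : ContDiff ℝ ∞ φ) (hp : Per φ) (k : K) :
    co k (toA φ h hp) = cf k (ds φ h.continuous hp) := rfl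

lemma io_toA (φ : E → ℂ) (h : ContDiff ℝ ∞ φ) (hp : Per φ) :
    io (toA φ h hp) = ds φ h.continuous hp := by
  have hs : Summable (mFourierCoeff (ds φ h.continuous hp)) := by
    have := ((rapid_cf h hp).summable 0)
    simp only [pow_zero, one_mul, cf_apply] at this
    exact this.of_norm
  refine HasSum.unique (hasSum_lift _ _) ?_
  simpa only [co_toA, cf_apply] using hasSum_mFourier_series_of_summable hs

lemma ev_toA (φ : E → ℂ) (h : ContDiff ℝ ∞ φ) (hp : Per φ) : ev (toA φ h hp) = φ := by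
  ext x
  rw [ev_apply, io_toA, ds_pr]

lemma toA_ev (f : A) (h : ContDiff ℝ ∞ (ev f)) : toA (ev f) h (ev_per f) = f :=
  ev_inj (ev_toA _ _ _)

lemma rapid_toA (φ : E → ℂ) (h : ContDiff ℝ ∞ φ) (hp : Per φ) :
    Rapid fun k => co k (toA φ h hp) := rapid_cf h hp

/-- the derivative of a smooth element is given by the expected multiplier -/
lemma dd_ev {f g : A} (h : ContDiff ℝ ∞ (ev f)) (v : E)
    (hg : ∀ k, co k g = ph k v * I * co k f) : dd v (ev f) = ev g := by
  rw [← ev_toA (dd v (ev f)) (dd_smooth h v) ((ev_per f).dd v)]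
  congr 1
  refine A_ext fun k => ?_
  rw [co_toA, cf_dd h (ev_per f), hg, ds_ev, cf_io]

lemma co_toA_dd {φ : E → ℂ} (h : ContDiff ℝ ∞ φ) (hp : Per φ) (v : E) (k : K) :
    co k (toA (dd v φ) (dd_smooth h v) (hp.dd v)) = ph k v * I * co k (toA φ h hp) :=
  cf_dd h hp v k

lemma norm_ph_le (k : K) : ‖ph k‖ ≤ 4 * π * ‖k‖ := by
  refine ContinuousLinearMap.opNorm_le_bound _ (by positivity) fun x => ?_
  have h0 : |(k 0 : ℝ)| ≤ ‖k‖ := by simpa [Int.norm_eq_abs] using norm_le_pi_norm k 0
  have h1 : |(k 1 : ℝ)| ≤ ‖k‖ := by simpa [Int.norm_eq_abs] using norm_le_pi_norm k 1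
  have h2 : |x 0| ≤ ‖x‖ := norm_le_pi_norm x 0
  have h3 : |x 1| ≤ ‖x‖ := norm_le_pi_norm x 1
  rw [ph_apply, Real.norm_eq_abs, abs_mul, abs_of_pos (by positivity : 0 < 2 * π)]
  have : |k 0 * x 0 + k 1 * x 1| ≤ ‖k‖ * ‖x‖ + ‖k‖ * ‖x‖ := by
    refine (abs_add_le _ _).trans ?_
    rw [abs_mul, abs_mul]
    gcongr
  calc 2 * π * |k 0 * x 0 + k 1 * x 1| ≤ 2 * π * (‖k‖ * ‖x‖ + ‖k‖ * ‖x‖) := by gcongr
    _ = _ := by ring

lemma iteratedDeriv_cis {F : Type*} [NormedAddCommGroup F] [NormedSpace ℂ F] (a : F) (c : ℝ)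
    (n : ℕ) : iteratedDeriv n (fun t : ℝ => exp ((c * t : ℝ) * I) • a) =
      fun t : ℝ => ((c * I) ^ n * exp ((c * t : ℝ) * I)) • a := by
  induction n with
  | zero => simp
  | succ n ih =>
    rw [iteratedDeriv_succ, ih]
    ext t
    have h1 : HasDerivAt (fun t : ℝ => ((c * t : ℝ) : ℂ) * I) (c * I) t := by
      have : HasDerivAt (fun t : ℝ => c * t) c t := by
        simpa using (hasDerivAt_id t).const_mul c
      exact this.ofReal_comp.mul_const I
    have h2 := ((h1.cexp).const_mul (((c : ℂ) * I) ^ n)).smul_const a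
    rw [h2.deriv]
    congr 1
    ring

lemma contDiff_cis {F : Type*} [NormedAddCommGroup F] [NormedSpace ℂ F] (a : F) (c : ℝ) :
    ContDiff ℝ ∞ (fun t : ℝ => exp ((c * t : ℝ) * I) • a) := by
  have : ContDiff ℝ ∞ (fun t : ℝ => exp ((c * t : ℝ) * I)) := by
    refine ContDiff.cexp (ContDiff.mul ?_ contDiff_const)
    exact ofRealCLM.contDiff.comp (contDiff_const.mul contDiff_id)
  exact this.smul contDiff_const

lemma contDiff_tr {f : A} (hf : Rapid fun k => co k f) : ContDiff ℝ ∞ fun h : E => tr h f := by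
  have h1 : (fun h : E => tr h f) = fun h => ∑' k,
      ((fun t : ℝ => exp ((1 * t : ℝ) * I) • (co k f • sg k)) ∘ ph k) h := by
    ext h
    rw [← (hasSum_sg (tr h f)).tsum_eq]
    refine tsum_congr fun k => ?_
    simp only [co_tr, ch_eq, Function.comp, one_mul, smul_smul]
  rw [h1]
  refine contDiff_tsum (N := (⊤ : ℕ∞)) (v := fun n k => (4 * π) ^ n * (‖k‖ ^ n * ‖co k f‖))
    (fun k => (contDiff_cis _ _).comp (ph k).contDiff)
    (fun n _ => (hf.summable n).mul_left _) fun n k x _ => ?_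
  rw [(ph k).iteratedFDeriv_comp_right (contDiff_cis _ _) x (by exact_mod_cast le_top)]
  refine (ContinuousMultilinearMap.norm_compContinuousLinearMap_le _ _).trans ?_
  rw [norm_iteratedFDeriv_eq_norm_iteratedDeriv, iteratedDeriv_cis]
  simp only [norm_smul, norm_mul, norm_pow, norm_exp_ofReal_mul_I, norm_sg, Finset.prod_const,
    Finset.card_univ, Fintype.card_fin, ofReal_one, norm_I, mul_one, one_pow, one_mul]
  calc ‖co k f‖ * ‖ph k‖ ^ n ≤ ‖co k f‖ * (4 * π * ‖k‖) ^ n := by
        gcongr; exact norm_ph_le k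
    _ = _ := by rw [mul_pow]; ring

lemma contDiff_ev_of_tr {f : A} (hf : ContDiff ℝ ∞ fun h : E => tr h f) : ContDiff ℝ ∞ (ev f) := by
  have : ev f = fun x => (evx 0).restrictScalars ℝ (tr x f) := by
    ext x
    simp [evx_apply, ev_tr]
  rw [this]
  exact ((evx 0).restrictScalars ℝ).contDiff.comp hf

lemma contDiff_tr_of_at {f : A} (hf : ContDiffAt ℝ ∞ (fun h : E => tr h f) 0) :
    ContDiff ℝ ∞ fun h : E => tr h f := by
  refine contDiff_iff_contDiffAt.2 fun x => ?_
  have : (fun h : E => tr h f) = fun h => (tr x).restrictScalars ℝ (tr (h - x) f) := by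
    ext1 h
    simp [← tr_add]
  rw [this]
  refine ((tr x).restrictScalars ℝ).contDiff.contDiffAt.comp x ?_
  exact ContDiffAt.comp (g := fun h : E => tr h f) x (by simpa using hf) (by fun_prop)

lemma contDiff_tr_mu {f : A} (hf : ContDiff ℝ ∞ fun h : E => tr h f) {m : K → ℂ} (hm : Bdd m) :
    ContDiff ℝ ∞ fun h : E => tr h (mu m f) := by
  simp only [tr_mu hm]
  exact ((mu m).restrictScalars ℝ).contDiff.comp hf

end Vale.Agent.P205
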