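import Vale.Agent.P205.Wiener

/-! Periodic functions on the plane, their Fourier coefficients, multipliers and translations. -/

open scoped ENNReal ComplexConjugate ContDiff Real
open UnitAddTorus MeasureTheory Complex

noncomputable section

namespace Vale.Agent.P205

attribute [local instance] instMeasCircle instHaarCircle instProbCircle

/-- projection of the plane to the torus -/
def pr (x : E) : T := fun i => (x i : UnitAddCircle)

lemma pr_quot : IsOpenQuotientMap pr :=
  IsOpenQuotientMap.piMap (f := fun (_ : Fin 2) (t : ℝ) => (t : UnitAddCircle))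
    fun _ => QuotientAddGroup.isOpenQuotientMap_mk

lemma pr_surj : Function.Surjective pr := pr_quot.surjective
lemma pr_cont : Continuous pr := pr_quot.continuous

lemma pr_add (x y : E) : pr (x + y) = pr x + pr y := by
  ext i; simp [pr]

/-- lattice vectors -/
def lat (k : K) : E := fun i => (k i : ℝ)

lemma pr_lat (k : K) : pr (lat k) = 0 := by
  ext i
  simp only [pr, lat, Pi.zero_apply]
  rw [AddCircle.coe_eq_zero_iff]
  exact ⟨k i, by simp⟩

lemma exists_lat {x y : E} (h : pr x = pr y) : ∃ k, x = y + lat k := by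
  have : ∀ i, ∃ n : ℤ, x i = y i + n := by
    intro i
    have hi : ((x i - y i : ℝ) : UnitAddCircle) = 0 := by
      have := congrFun h i
      simp only [pr] at this
      rw [AddCircle.coe_sub, this, sub_self]
    obtain ⟨n, hn⟩ := (AddCircle.coe_eq_zero_iff _).1 hi
    exact ⟨n, by simp at hn; linarith⟩
  choose k hk using this
  exact ⟨k, funext hk⟩

/-- periodicity with respect to the integer lattice -/
def Per {F : Type*} (φ : E → F) : Prop := ∀ x k, φ (x + lat k) = φ x

lemma per_comp_pr {F : Type*} (Φ : T → F) : Per fun x => Φ (pr x) := fun x k => by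
  simp only [pr_add, pr_lat, add_zero]

/-- a continuous periodic function as a function on the torus -/
def ds {F : Type*} [TopologicalSpace F] (φ : E → F) (hc : Continuous φ) (hp : Per φ) : C(T, F) where
  toFun t := φ (Function.surjInv pr_surj t)
  continuous_toFun := by
    rw [← pr_quot.continuous_comp_iff]
    convert hc using 1
    ext x
    obtain ⟨k, hk⟩ := exists_lat (Function.surjInv_eq pr_surj (pr x))
    simp only [Function.comp, hk, hp x k]

lemma ds_pr {F : Type*} [TopologicalSpace F] (φ : E → F) (hc : Continuous φ) (hp : Per φ) (x : E) :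
    ds φ hc hp (pr x) = φ x := by
  obtain ⟨k, hk⟩ := exists_lat (Function.surjInv_eq pr_surj (pr x))
  change φ _ = _
  rw [hk, hp x k]

lemma exists_max {φ : E → ℝ} (hc : Continuous φ) (hp : Per φ) : ∃ x₀, ∀ x, φ x ≤ φ x₀ := by
  obtain ⟨t, -, ht⟩ := isCompact_univ.exists_isMaxOn (Set.univ_nonempty (α := T))
    (ds φ hc hp).continuous.continuousOn
  obtain ⟨x₀, rfl⟩ := pr_surj t
  refine ⟨x₀, fun x => ?_⟩
  have := ht (Set.mem_univ (pr x))
  simpa only [Set.mem_ofPred_eq, ds_pr] using this

/-- the real phase of a character -/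
def ph (k : K) : E →L[ℝ] ℝ :=
  (2 * π * k 0) • ContinuousLinearMap.proj 0 + (2 * π * k 1) • ContinuousLinearMap.proj 1

lemma ph_apply (k : K) (x : E) : ph k x = 2 * π * (k 0 * x 0 + k 1 * x 1) := by
  simp [ph]; ring

/-- the characters -/
def ch (k : K) (x : E) : ℂ := mFourier k (pr x)

lemma ch_eq (k : K) (x : E) : ch k x = exp (ph k x * I) := by
  simp only [ch, mFourier, pr, ContinuousMap.coe_mk, Fin.prod_univ_two, fourier_coe_apply,
    ph_apply, ← Complex.exp_add]
  congr 1
  push_cast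
  ring

lemma norm_ch (k : K) (x : E) : ‖ch k x‖ = 1 := by rw [ch_eq, norm_exp_ofReal_mul_I]

lemma ch_add (k : K) (x y : E) : ch k (x + y) = ch k x * ch k y := by
  simp only [ch_eq, map_add, ← Complex.exp_add]
  congr 1
  push_cast
  ring

lemma ch_zero (k : K) : ch k 0 = 1 := by simp [ch_eq]

lemma ch_zero' (x : E) : ch 0 x = 1 := by simp [ch_eq, ph_apply]

lemma ch_add' (k l : K) (x : E) : ch (k + l) x = ch k x * ch l x := mFourier_add

lemma ch_neg (k : K) (x : E) : ch (-k) x = conj (ch k x) := mFourier_neg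

lemma integral_deriv_eq_zero (Φ Φ' : C(T, ℂ)) (v : E)
    (h : ∀ x : E, HasDerivAt (fun s : ℝ => Φ (pr (x + s • v))) (Φ' (pr x)) 0) :
    ∫ t, Φ' t = 0 := by
  have hint : ∀ (Ψ : C(T, ℂ)) (a : T), Integrable (fun t => Ψ (t + a)) := fun Ψ a =>
    Continuous.integrable_of_hasCompactSupport (by fun_prop) (HasCompactSupport.of_compactSpace _)
  have key := (hasDerivAt_integral_of_dominated_loc_of_deriv_le (μ := (volume : Measure T))
    (F := fun (s : ℝ) (t : T) => Φ (t + pr (s • v))) (F' := fun (s : ℝ) (t : T) => Φ' (t + pr (s • v)))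
    (x₀ := 0) (bound := fun _ => ‖Φ'‖) (s := Set.univ) Filter.univ_mem
    (.of_forall fun s => (hint Φ _).aestronglyMeasurable) (hint Φ _)
    (hint Φ' _).aestronglyMeasurable
    (.of_forall fun t s _ => Φ'.norm_coe_le_norm _) (integrable_const _)
    (.of_forall fun t s _ => by
      obtain ⟨x, rfl⟩ := pr_surj t
      have h1 := h (x + s • v)
      rw [← sub_self s] at h1
      have h2 := h1.comp_sub_const s s
      simp only [← pr_add]
      convert h2 using 4
      rw [add_assoc, ← add_smul]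
      congr 2
      ring)).2
  have hc : (fun s : ℝ => ∫ t, Φ (t + pr (s • v))) = fun _ => ∫ t, Φ t := by
    ext s
    exact integral_add_right_eq_self (μ := (volume : Measure T)) (fun t => Φ t) _
  rw [hc] at key
  have := key.unique (hasDerivAt_const _ _)
  rw [← this]
  exact (integral_add_right_eq_self (μ := (volume : Measure T)) (fun t => Φ' t) _).symm

lemma hasDerivAt_ch (k : K) (x v : E) :
    HasDerivAt (fun s : ℝ => ch k (x + s • v)) (ch k x * (ph k v * I)) 0 := by
  have h1 : HasDerivAt (fun s : ℝ => ((ph k (x + s • v) : ℝ) : ℂ) * I) (ph k v * I) 0 := by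
    have : HasDerivAt (fun s : ℝ => ph k (x + s • v)) (ph k v) 0 := by
      simp only [map_add, map_smul, smul_eq_mul]
      simpa using ((hasDerivAt_id (0 : ℝ)).mul_const (ph k v)).const_add (ph k x)
    exact this.ofReal_comp.mul_const I
  simpa only [ch_eq, zero_smul, add_zero] using h1.cexp

lemma cf_deriv (Φ Φ' : C(T, ℂ)) (v : E)
    (h : ∀ x : E, HasDerivAt (fun s : ℝ => Φ (pr (x + s • v))) (Φ' (pr x)) 0) (k : K) :
    cf k Φ' = ph k v * I * cf k Φ := by
  have key := integral_deriv_eq_zero (mFourier (-k) * Φ)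
    (mFourier (-k) * Φ' - ((ph k v : ℂ) * I) • (mFourier (-k) * Φ)) v fun x => by
      have h1 := (hasDerivAt_ch (-k) x v).mul (h x)
      refine HasDerivAt.congr_deriv (f := fun s : ℝ => ch (-k) (x + s • v) * Φ (pr (x + s • v)))
        h1 ?_
      simp only [ch, zero_smul, add_zero, ContinuousMap.sub_apply, ContinuousMap.mul_apply,
        ContinuousMap.smul_apply, smul_eq_mul, ph_apply, Pi.neg_apply]
      push_cast
      ring
  have hint : ∀ (Ψ : C(T, ℂ)), Integrable (fun t => Ψ t) := fun Ψ =>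
    Continuous.integrable_of_hasCompactSupport (by fun_prop) (HasCompactSupport.of_compactSpace _)
  simp only [ContinuousMap.sub_apply, ContinuousMap.smul_apply] at key
  rw [integral_sub (hint _) (by exact (hint (mFourier (-k) * Φ)).smul ((ph k v : ℂ) * I)), integral_smul, sub_eq_zero] at key
  simpa only [cf_apply, mFourierCoeff, smul_eq_mul, ContinuousMap.mul_apply] using key

/-- rapidly decreasing sequences -/
def Rapid (c : K → ℂ) : Prop := ∀ n : ℕ, ∃ C : ℝ, ∀ k, ‖k‖ ^ n * ‖c k‖ ≤ C

lemma Rapid.summable {c : K → ℂ} (h : Rapid c) (n : ℕ) : Summable fun k => ‖k‖ ^ n * ‖c k‖ := by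
  obtain ⟨C, hC⟩ := h (n + 3)
  have h3 := (EisensteinSeries.summable_one_div_norm_rpow (k := 3) (by norm_num)).mul_left C
  refine Summable.of_norm_bounded_eventually h3 ?_
  filter_upwards [(Set.finite_singleton (0 : K)).compl_mem_cofinite] with k hk
  have hk' : 0 < ‖k‖ := norm_pos_iff.2 hk
  rw [Real.norm_of_nonneg (by positivity), Real.rpow_neg hk'.le, ← div_eq_mul_inv,
    le_div_iff₀ (by positivity)]
  have := hC k
  rw [show (3 : ℝ) = (3 : ℕ) by norm_num, Real.rpow_natCast]
  calc _ = ‖k‖ ^ (n + 3) * ‖c k‖ := by ring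
    _ ≤ C := this

lemma rapid_of_coord {c : K → ℂ} (h : ∀ (n : ℕ) (j : Fin 2), ∃ C : ℝ, ∀ k, |(k j : ℝ)| ^ n * ‖c k‖ ≤ C) :
    Rapid c := by
  intro n
  obtain ⟨C₀, h₀⟩ := h n 0
  obtain ⟨C₁, h₁⟩ := h n 1
  refine ⟨max C₀ C₁, fun k => ?_⟩
  rcases le_total |(k 0 : ℝ)| |(k 1 : ℝ)| with hk | hk
  · have : ‖k‖ ≤ |(k 1 : ℝ)| := (pi_norm_le_iff_of_nonneg (abs_nonneg _)).2 fun i => by
      fin_cases i
      · simpa [Int.norm_eq_abs] using hk
      · simp [Int.norm_eq_abs]
    refine le_trans ?_ ((h₁ k).trans (le_max_right _ _))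
    gcongr
  · have : ‖k‖ ≤ |(k 0 : ℝ)| := (pi_norm_le_iff_of_nonneg (abs_nonneg _)).2 fun i => by
      fin_cases i
      · simp [Int.norm_eq_abs]
      · simpa [Int.norm_eq_abs] using hk
    refine le_trans ?_ ((h₀ k).trans (le_max_left _ _))
    gcongr

/-- directional derivative -/
def dd (v : E) (φ : E → ℂ) : E → ℂ := fun x => fderiv ℝ φ x v

lemma dd_smooth {φ : E → ℂ} (h : ContDiff ℝ ∞ φ) (v : E) : ContDiff ℝ ∞ (dd v φ) :=
  (h.fderiv_right (m := ∞) (by simp)).clm_apply contDiff_const

lemma Per.fderiv {F : Type*} [NormedAddCommGroup F] [NormedSpace ℝ F] {φ : E → F} (h : Per φ) :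
    Per (fderiv ℝ φ) := by
  intro x k
  have : φ = fun y => φ (y + lat k) := funext fun y => (h y k).symm
  conv_rhs => rw [this]
  rw [fderiv_comp_add_right]

lemma Per.dd {φ : E → ℂ} (h : Per φ) (v : E) : Per (dd v φ) := fun x k => by
  simp only [P205.dd, h.fderiv x k]

lemma hasDerivAt_dd {φ : E → ℂ} (h : ContDiff ℝ ∞ φ) (x v : E) :
    HasDerivAt (fun s : ℝ => φ (x + s • v)) (dd v φ x) 0 := by
  have h1 : HasDerivAt (fun s : ℝ => x + s • v) v 0 := by
    simpa using ((hasDerivAt_id (0 : ℝ)).smul_const v).const_add x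
  have h2 : HasFDerivAt φ (fderiv ℝ φ x) (x + (0 : ℝ) • v) := by
    simpa using (h.differentiable (by simp) x).hasFDerivAt
  exact h2.comp_hasDerivAt (0 : ℝ) h1

lemma cf_dd {φ : E → ℂ} (h : ContDiff ℝ ∞ φ) (hp : Per φ) (v : E) (k : K) :
    cf k (ds (dd v φ) (dd_smooth h v).continuous (hp.dd v)) =
      ph k v * I * cf k (ds φ h.continuous hp) :=
  cf_deriv _ _ v (fun x => by simpa only [ds_pr] using hasDerivAt_dd h x v) k

lemma norm_cf_le (k : K) (Φ : C(T, ℂ)) : ‖cf k Φ‖ ≤ ‖J‖ * ‖Φ‖ :=
  (lp.norm_apply_le_norm (by simp) (J Φ) k).trans (J.le_opNorm Φ)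

lemma ph_single (k : K) (j : Fin 2) : ph k (Pi.single j 1) = 2 * π * k j := by
  fin_cases j <;> simp [ph_apply]

lemma rapid_cf {φ : E → ℂ} (h : ContDiff ℝ ∞ φ) (hp : Per φ) :
    Rapid fun k => cf k (ds φ h.continuous hp) := by
  refine rapid_of_coord fun n j => ?_
  induction n generalizing φ with
  | zero => exact ⟨_, fun k => by simpa using norm_cf_le k _⟩
  | succ n ih =>
    obtain ⟨C, hC⟩ := ih (dd_smooth h (Pi.single j 1)) (hp.dd _)
    refine ⟨C / (2 * π), fun k => ?_⟩
    have := hC k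
    rw [cf_dd h hp, ph_single] at this
    rw [le_div_iff₀ (by positivity)]
    refine le_trans (le_of_eq ?_) this
    simp only [norm_mul, norm_real, norm_I, Real.norm_eq_abs, abs_two,
      abs_of_pos Real.pi_pos]
    ring

end Vale.Agent.P205
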