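import Vale.Agent.P205.Mult

/-! The ring of smooth functions on the plane and Wirtinger derivatives adapted to a lattice. -/

open scoped ENNReal ComplexConjugate ContDiff Real
open Complex

noncomputable section

namespace Vale.Agent.P205

/-- smooth complex functions on the plane -/
def Sm : Subalgebra ℂ (E → ℂ) where
  carrier := {f | ContDiff ℝ ∞ f}
  mul_mem' {a b} (ha : ContDiff ℝ ∞ a) (hb : ContDiff ℝ ∞ b) := ha.mul hb
  add_mem' {a b} (ha : ContDiff ℝ ∞ a) (hb : ContDiff ℝ ∞ b) := ha.add hb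
  algebraMap_mem' c := show ContDiff ℝ ∞ (fun _ : E => c) from contDiff_const

lemma Sm.smooth (f : Sm) : ContDiff ℝ ∞ (f : E → ℂ) := f.2

lemma Sm.diff (f : Sm) (x : E) : DifferentiableAt ℝ (f : E → ℂ) x :=
  (Sm.smooth f).differentiable (by simp) x

/-- directional derivative as a derivation -/
def DD (v : E) : Derivation ℂ Sm Sm :=
  Derivation.mk'
    { toFun := fun f => ⟨dd v f, dd_smooth (Sm.smooth f) v⟩
      map_add' := fun f g => Subtype.ext <| by
        ext x
        simp only [dd, Subalgebra.coe_add, Pi.add_apply]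
        rw [fderiv_add (Sm.diff f x) (Sm.diff g x)]
        rfl
      map_smul' := fun c f => Subtype.ext <| by
        ext x
        simp only [dd, Subalgebra.coe_smul, RingHom.id_apply, Pi.smul_apply]
        rw [fderiv_const_smul (Sm.diff f x)]
        rfl }
    fun f g => Subtype.ext <| by
      ext x
      simp only [dd, LinearMap.coe_mk, AddHom.coe_mk, MulMemClass.coe_mul, smul_eq_mul,
        Subalgebra.coe_add, Pi.add_apply, Pi.mul_apply]
      rw [fderiv_mul (Sm.diff f x) (Sm.diff g x)]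
      rfl

lemma coe_DD (v : E) (f : Sm) : (DD v f : E → ℂ) = dd v f := rfl

lemma dd_comm {f : E → ℂ} (hf : ContDiff ℝ ∞ f) (v w : E) : dd v (dd w f) = dd w (dd v f) := by
  ext x
  have h2 : IsSymmSndFDerivAt ℝ f x := hf.contDiffAt.isSymmSndFDerivAt (by
    rw [minSmoothness_of_isRCLikeNormedField]; exact ENat.LEInfty.out)
  have h1 : DifferentiableAt ℝ (fderiv ℝ f) x :=
    (hf.fderiv_right (m := ∞) (by simp)).differentiable (by simp) x
  have key : ∀ a b : E, dd a (dd b f) x = fderiv ℝ (fderiv ℝ f) x a b := by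
    intro a b
    change fderiv ℝ (fun y => fderiv ℝ f y b) x a = _
    rw [fderiv_clm_apply h1 (differentiableAt_const _)]
    simp
  rw [key, key, h2.eq]

lemma DD_comm (v w : E) (f : Sm) : DD v (DD w f) = DD w (DD v f) :=
  Subtype.ext (dd_comm (Sm.smooth f) v w)

/-- exponential of a smooth function -/
def Sm.exp (f : Sm) : Sm := ⟨fun x => cexp ((f : E → ℂ) x), (Sm.smooth f).cexp⟩

lemma DD_exp (v : E) (f : Sm) : DD v (Sm.exp f) = Sm.exp f * DD v f := Subtype.ext <| by
  ext x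
  change fderiv ℝ (fun x => cexp ((f : E → ℂ) x)) x v = cexp ((f : E → ℂ) x) * fderiv ℝ f x v
  rw [(Sm.diff f x).hasFDerivAt.cexp.fderiv]
  rfl

/-- A lattice in the complex plane, given by a basis. -/
structure Lat where
  /-- the basis -/
  w : Fin 2 → ℂ
  ne : w 0 * conj (w 1) - conj (w 0) * w 1 ≠ 0

namespace Lat

variable (L : Lat)

/-- determinant -/
def det : ℂ := L.w 0 * conj (L.w 1) - conj (L.w 0) * L.w 1

lemma det_ne : L.det ≠ 0 := L.ne

lemma conj_det : conj L.det = -L.det := by simp [det]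

/-- the complex coordinate -/
def z : E →L[ℝ] ℂ :=
  (ContinuousLinearMap.proj 0 : E →L[ℝ] ℝ).smulRight (L.w 0) +
    (ContinuousLinearMap.proj 1 : E →L[ℝ] ℝ).smulRight (L.w 1)

lemma z_apply (v : E) : L.z v = v 0 * L.w 0 + v 1 * L.w 1 := by simp [z]

lemma z_inj {v : E} (h : L.z v = 0) : v = 0 := by
  have h' := congrArg conj h
  rw [z_apply] at h
  simp only [z_apply, map_add, map_mul, conj_ofReal, map_zero] at h'
  have h0 : (v 0 : ℂ) * L.det = 0 := by
    rw [det]; linear_combination conj (L.w 1) * h - L.w 1 * h'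
  have h1 : (v 1 : ℂ) * L.det = 0 := by
    rw [det]; linear_combination L.w 0 * h' - conj (L.w 0) * h
  rw [mul_eq_zero_iff_right L.det_ne, ofReal_eq_zero] at h0 h1
  ext i
  fin_cases i <;> assumption

/-- first Wirtinger derivative -/
def d : Derivation ℂ Sm Sm :=
  (conj (L.w 1) / L.det) • DD (Pi.single 0 1) + (-conj (L.w 0) / L.det) • DD (Pi.single 1 1)

/-- second Wirtinger derivative -/
def d' : Derivation ℂ Sm Sm :=
  (-L.w 1 / L.det) • DD (Pi.single 0 1) + (L.w 0 / L.det) • DD (Pi.single 1 1)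

lemma d_comm (f : Sm) : L.d (L.d' f) = L.d' (L.d f) := by
  simp only [d, d', Derivation.add_apply, Derivation.smul_apply, map_add, Derivation.map_smul,
    DD_comm (Pi.single 0 1) (Pi.single 1 1)]
  module

lemma d_exp (f : Sm) : L.d (Sm.exp f) = Sm.exp f * L.d f := by
  simp only [d, Derivation.add_apply, Derivation.smul_apply, DD_exp, mul_add, mul_smul_comm]

lemma d'_exp (f : Sm) : L.d' (Sm.exp f) = Sm.exp f * L.d' f := by
  simp only [d', Derivation.add_apply, Derivation.smul_apply, DD_exp, mul_add, mul_smul_comm]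

lemma fderiv_eq (f : Sm) (x v : E) :
    fderiv ℝ (f : E → ℂ) x v = L.z v * (L.d f : E → ℂ) x + conj (L.z v) * (L.d' f : E → ℂ) x := by
  have hv : v = v 0 • (Pi.single 0 1 : E) + v 1 • (Pi.single 1 1 : E) := by
    ext i; fin_cases i <;> simp
  conv_lhs => rw [hv]
  simp only [map_add, map_smul, d, d', Derivation.add_apply, Derivation.smul_apply,
    Subalgebra.coe_add, Subalgebra.coe_smul, Pi.add_apply, Pi.smul_apply, coe_DD, dd, z_apply,
    map_mul, conj_ofReal, smul_eq_mul, real_smul]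
  have := L.det_ne
  field_simp
  rw [det]
  ring

/-- symbol of `d` -/
def xi (k : K) : ℂ := 2 * π * I * (conj (L.w 1) * k 0 - conj (L.w 0) * k 1) / L.det

/-- symbol of `d'` -/
def eta (k : K) : ℂ := 2 * π * I * (-L.w 1 * k 0 + L.w 0 * k 1) / L.det

lemma conj_xi (k : K) : conj (L.xi (-k)) = L.eta k := by
  simp only [xi, eta, map_div₀, map_mul, map_sub, conj_det, Pi.neg_apply, Int.cast_neg, map_neg,
    map_intCast, conj_ofReal, conj_I, conj_conj, map_ofNat]
  ring

lemma conj_eta (k : K) : conj (L.eta (-k)) = L.xi k := by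
  rw [← conj_xi, conj_conj, neg_neg]

lemma xi_neg (k : K) : L.xi (-k) = -L.xi k := by
  simp only [xi, Pi.neg_apply, Int.cast_neg]; ring

lemma norm_eta (k : K) : ‖L.eta k‖ = ‖L.xi k‖ := by
  rw [← conj_xi, RCLike.norm_conj, xi_neg, norm_neg]

@[simp] lemma xi_zero : L.xi 0 = 0 := by simp [xi]
@[simp] lemma eta_zero : L.eta 0 = 0 := by simp [eta]

lemma xi_eta (k : K) (j : Fin 2) : L.w j * L.xi k + conj (L.w j) * L.eta k = 2 * π * I * k j := by
  have := L.det_ne
  fin_cases j <;> simp only [xi, eta, Fin.zero_eta, Fin.mk_one, Fin.isValue] <;> field_simp <;>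
    rw [det] <;> ring

lemma xi_lower {k : K} (hk : k ≠ 0) : 1 ≤ (‖L.w 0‖ + ‖L.w 1‖) * ‖L.xi k‖ := by
  obtain ⟨j, hj⟩ := Function.ne_iff.1 hk
  have h1 : (1 : ℝ) ≤ |(k j : ℝ)| := by exact_mod_cast Int.one_le_abs hj
  have h2 : ‖(2 * π * I * k j : ℂ)‖ ≤ 2 * ‖L.w j‖ * ‖L.xi k‖ := by
    rw [← xi_eta]
    refine (norm_add_le _ _).trans (le_of_eq ?_)
    rw [norm_mul, norm_mul, RCLike.norm_conj, norm_eta]
    ring
  have h3 : ‖(2 * π * I * k j : ℂ)‖ = 2 * π * |(k j : ℝ)| := by
    simp [abs_of_pos Real.pi_pos]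
  have h4 : ‖L.w j‖ ≤ ‖L.w 0‖ + ‖L.w 1‖ := by
    fin_cases j <;> simp
  have h5 := Real.pi_gt_three
  have h6 : ‖L.w j‖ * ‖L.xi k‖ ≤ (‖L.w 0‖ + ‖L.w 1‖) * ‖L.xi k‖ := by gcongr
  nlinarith

lemma xi_ne {k : K} (hk : k ≠ 0) : L.xi k ≠ 0 := by
  intro h
  have := L.xi_lower hk
  rw [h, norm_zero, mul_zero] at this
  linarith

lemma eta_ne {k : K} (hk : k ≠ 0) : L.eta k ≠ 0 := by
  rw [← norm_ne_zero_iff, norm_eta, norm_ne_zero_iff]
  exact L.xi_ne hk

lemma bdd_xi_inv : Bdd fun k => (L.xi k)⁻¹ := by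
  refine ⟨‖L.w 0‖ + ‖L.w 1‖, fun k => ?_⟩
  by_cases hk : k = 0
  · simp [hk]; positivity
  · rw [norm_inv, inv_le_iff_one_le_mul₀ (norm_pos_iff.2 (L.xi_ne hk))]
    exact L.xi_lower hk

lemma bdd_eta_inv : Bdd fun k => (L.eta k)⁻¹ := by
  obtain ⟨C, hC⟩ := L.bdd_xi_inv
  exact ⟨C, fun k => by simpa only [norm_inv, norm_eta] using hC k⟩

lemma bdd_xi_div : Bdd fun k => L.xi k / L.eta k :=
  ⟨1, fun k => by rw [norm_div, norm_eta]; exact div_self_le_one _⟩

lemma bdd_eta_div : Bdd fun k => L.eta k / L.xi k :=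
  ⟨1, fun k => by rw [norm_div, norm_eta]; exact div_self_le_one _⟩

/-- coefficients of the Wirtinger derivatives -/
lemma co_d {f g : A} {F : Sm} (hF : (F : E → ℂ) = ev f) (hG : (L.d F : E → ℂ) = ev g) (k : K) :
    co k g = L.xi k * co k f := by
  have h : ContDiff ℝ ∞ (ev f) := hF ▸ Sm.smooth F
  have : g = (conj (L.w 1) / L.det) • toA _ (dd_smooth h (Pi.single 0 1)) ((ev_per f).dd _) +
      (-conj (L.w 0) / L.det) • toA _ (dd_smooth h (Pi.single 1 1)) ((ev_per f).dd _) := by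
    apply ev_inj
    rw [map_add, ev_smul, ev_smul, ev_toA, ev_toA, ← hG, ← hF]
    rfl
  rw [this, map_add, map_smul, map_smul, co_toA_dd h (ev_per f), co_toA_dd h (ev_per f), toA_ev,
    ph_single, ph_single]
  simp only [xi, smul_eq_mul]
  push_cast
  ring

lemma co_d' {f g : A} {F : Sm} (hF : (F : E → ℂ) = ev f) (hG : (L.d' F : E → ℂ) = ev g) (k : K) :
    co k g = L.eta k * co k f := by
  have h : ContDiff ℝ ∞ (ev f) := hF ▸ Sm.smooth F
  have : g = (-L.w 1 / L.det) • toA _ (dd_smooth h (Pi.single 0 1)) ((ev_per f).dd _) +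
      (L.w 0 / L.det) • toA _ (dd_smooth h (Pi.single 1 1)) ((ev_per f).dd _) := by
    apply ev_inj
    rw [map_add, ev_smul, ev_smul, ev_toA, ev_toA, ← hG, ← hF]
    rfl
  rw [this, map_add, map_smul, map_smul, co_toA_dd h (ev_per f), co_toA_dd h (ev_per f), toA_ev,
    ph_single, ph_single]
  simp only [eta, smul_eq_mul]
  push_cast
  ring

lemma per_d {F : Sm} (h : Per (F : E → ℂ)) : Per (L.d F : E → ℂ) := fun x k => by
  simp only [d, Derivation.add_apply, Derivation.smul_apply, Subalgebra.coe_add,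
    Subalgebra.coe_smul, Pi.add_apply, Pi.smul_apply, coe_DD, h.dd _ x k]

lemma per_d' {F : Sm} (h : Per (F : E → ℂ)) : Per (L.d' F : E → ℂ) := fun x k => by
  simp only [d', Derivation.add_apply, Derivation.smul_apply, Subalgebra.coe_add,
    Subalgebra.coe_smul, Pi.add_apply, Pi.smul_apply, coe_DD, h.dd _ x k]

lemma d_ev {f g : A} {F : Sm} (hF : (F : E → ℂ) = ev f) (hg : ∀ k, co k g = L.xi k * co k f) :
    (L.d F : E → ℂ) = ev g := by
  have hp : Per (L.d F : E → ℂ) := L.per_d (hF ▸ ev_per f)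
  have h1 := ev_toA _ (Sm.smooth (L.d F)) hp
  rw [← h1]
  congr 1
  exact A_ext fun k => by rw [L.co_d hF h1.symm, hg]

lemma d'_ev {f g : A} {F : Sm} (hF : (F : E → ℂ) = ev f) (hg : ∀ k, co k g = L.eta k * co k f) :
    (L.d' F : E → ℂ) = ev g := by
  have hp : Per (L.d' F : E → ℂ) := L.per_d' (hF ▸ ev_per f)
  have h1 := ev_toA _ (Sm.smooth (L.d' F)) hp
  rw [← h1]
  congr 1
  exact A_ext fun k => by rw [L.co_d' hF h1.symm, hg]

end Lat

end Vale.Agent.P205
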