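import Vale.Agent.P205.Sm
import Vale.Agent.P205.Alg

/-! Solving the curvature equation in the Wiener algebra by the implicit function theorem. -/

open scoped ENNReal ComplexConjugate ContDiff Real Topology
open Complex Filter

noncomputable section

namespace Vale.Agent.P205

@[fun_prop] lemma contDiff_expA {n : WithTop ℕ∞} : ContDiff ℝ n (NormedSpace.exp : A → A) :=
  contDiff_iff_contDiffAt.2 fun x => (NormedSpace.exp_analytic (𝕂 := ℝ) x).contDiffAt

namespace Lat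

variable (L : Lat)

/-- symbols of the derivatives of the Green operator -/
def Gs (a b : ℕ) (k : K) : ℂ := L.xi k ^ a * L.eta k ^ b * (2 * L.xi k * L.eta k)⁻¹

lemma bdd_Gs {a b : ℕ} (h : a + b ≤ 2) : Bdd (L.Gs a b) := by
  refine ⟨(‖L.w 0‖ + ‖L.w 1‖) ^ (2 - (a + b)), fun k => ?_⟩
  by_cases hk : k = 0
  · simp only [Gs, hk, xi_zero, mul_zero, zero_mul, inv_zero, norm_zero]; positivity
  · have h0 : 0 < ‖L.xi k‖ := norm_pos_iff.2 (L.xi_ne hk)
    have h1 := one_le_pow₀ (n := 2 - (a + b)) (L.xi_lower hk)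
    simp only [Gs, norm_mul, norm_pow, norm_inv, norm_eta, Complex.norm_ofNat]
    rw [← pow_add, ← div_eq_mul_inv, div_le_iff₀ (by positivity)]
    calc ‖L.xi k‖ ^ (a + b)
        ≤ ‖L.xi k‖ ^ (a + b) * ((‖L.w 0‖ + ‖L.w 1‖) * ‖L.xi k‖) ^ (2 - (a + b)) :=
          le_mul_of_one_le_right (by positivity) h1
      _ = (‖L.w 0‖ + ‖L.w 1‖) ^ (2 - (a + b)) * ‖L.xi k‖ ^ (a + b + (2 - (a + b))) := by
          rw [mul_pow, pow_add]; ring
      _ = (‖L.w 0‖ + ‖L.w 1‖) ^ (2 - (a + b)) * (‖L.xi k‖ * ‖L.xi k‖) := by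
          rw [Nat.add_sub_cancel' h, pow_two]
      _ ≤ _ := by
          gcongr
          linarith

/-- derivatives of the Green operator -/
def G (a b : ℕ) : A →L[ℂ] A := mu (L.Gs a b)

@[fun_prop] lemma contDiff_G {n : WithTop ℕ∞} (a b : ℕ) : ContDiff ℝ n (L.G a b) :=
  ((L.G a b).restrictScalars ℝ).contDiff

lemma tr_G {a b : ℕ} (h : a + b ≤ 2) (x : E) (f : A) : trR x (L.G a b f) = L.G a b (trR x f) :=
  tr_mu (L.bdd_Gs h) x f

lemma st_G {a b : ℕ} (h : a + b ≤ 2) (f : A) : st (L.G a b f) = L.G b a (st f) :=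
  st_mu (L.bdd_Gs h) (L.bdd_Gs (by omega)) (fun k => by
    simp only [Gs, map_mul, map_pow, map_inv₀, conj_xi, conj_eta, map_ofNat]; ring) f

lemma co_G_left {a b : ℕ} (h : a + 1 + b ≤ 2) (f : A) (k : K) :
    co k (L.G (a + 1) b f) = L.xi k * co k (L.G a b f) := by
  simp only [G, co_mu (L.bdd_Gs h), co_mu (L.bdd_Gs (a := a) (b := b) (by omega)), Gs]; ring

lemma co_G_right {a b : ℕ} (h : a + (b + 1) ≤ 2) (f : A) (k : K) :
    co k (L.G a (b + 1) f) = L.eta k * co k (L.G a b f) := by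
  simp only [G, co_mu (L.bdd_Gs h), co_mu (L.bdd_Gs (a := a) (b := b) (by omega)), Gs]; ring

lemma two_G11 (f : A) : 2 * L.G 1 1 f = f - co 0 f • (1 : A) := by
  refine A_ext fun k => ?_
  rw [two_mul, map_add, map_sub, map_smul, G, co_mu (L.bdd_Gs le_rfl), Gs]
  change _ = _ - _ * co k (sg 0)
  rw [co_sg]
  split_ifs with hk
  · simp [hk]
  · have := L.xi_ne hk
    have := L.eta_ne hk
    field_simp
    ring

/-- the common factor -/
def Q (ψ f t : A) : A :=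
  NormedSpace.exp (2 * L.G 0 0 f) * (1 + t * L.G 1 0 (ψ + f) * L.G 0 1 (ψ + f)) ^ 2

/-- the nonlinearity of the curvature equation -/
def Ps (ψ f t y : A) : A :=
  fPsi t y (L.G 1 0 f) (L.G 0 1 f) (L.G 1 1 f) (L.G 1 0 (ψ + f)) (L.G 0 1 (ψ + f))
    (L.G 2 0 (ψ + f)) (L.G 1 1 (ψ + f)) (L.G 0 2 (ψ + f))

/-- the nonlinearity of the system -/
def Nl (ψ : A) (X : A × A × A) : A × A × A :=
  (-(L.Q ψ X.1 X.2.1 * L.Ps ψ X.1 X.2.1 X.2.2), L.Q ψ X.1 X.2.1,
    L.Q ψ X.1 X.2.1 * L.G 1 0 (ψ + X.1) * L.G 0 1 (ψ + X.1) * X.2.2)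

lemma contDiff_Nl : ContDiff ℝ ω fun p : A × A × A × A => L.Nl p.1 p.2 := by
  unfold Nl Q Ps fPsi fU fT fW
  fun_prop

/-- componentwise action -/
def act (σ : A →+* A) (X : A × A × A) : A × A × A := (σ X.1, σ X.2.1, σ X.2.2)

lemma Nl_tr (x : E) (ψ : A) (X : A × A × A) :
    L.Nl (trR x ψ) (act (trR x) X) = act (trR x) (L.Nl ψ X) := by
  have he : ∀ a : A, trR x (NormedSpace.exp a) = NormedSpace.exp (trR x a) :=
    NormedSpace.map_exp (trR x) (tr x).continuous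
  simp [Nl, act, Q, Ps, map_fPsi, he, L.tr_G, map_ofNat]

lemma Nl_st (ψ : A) (X : A × A × A) : L.Nl (st ψ) (act st X) = act st (L.Nl ψ X) := by
  have he : ∀ a : A, st (NormedSpace.exp a) = NormedSpace.exp (st a) :=
    NormedSpace.map_exp st st_isometry.continuous
  have hQ : st (L.Q ψ X.1 X.2.1) = L.Q (st ψ) (st X.1) (st X.2.1) := by
    simp [Q, he, L.st_G, map_ofNat]; ring
  have hP : st (L.Ps ψ X.1 X.2.1 X.2.2) = L.Ps (st ψ) (st X.1) (st X.2.1) (st X.2.2) := by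
    simp only [Ps, map_fPsi]
    rw [← fPsi_symm]
    simp [L.st_G]
  simp only [Nl, act, map_neg, map_mul, hQ, hP, Prod.mk.injEq, true_and]
  simp [L.st_G]; ring

lemma norm_act_sub {σ : A →+* A} (hσ : ∀ a, ‖σ a‖ = ‖a‖) (X : A × A × A) :
    dist (act σ X) (0, 0, 1) = dist X (0, 0, 1) := by
  have : act σ X - (0, 0, 1) = act σ (X - (0, 0, 1)) := by simp [act]
  rw [dist_eq_norm, dist_eq_norm, this]
  simp only [act, Prod.norm_def, hσ]

theorem exists_solution {ψ : A} (hψ : ContDiff ℝ ∞ fun h : E => tr h ψ) (hψ' : st ψ = ψ) :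
    ∃ δ > (0 : ℝ), ∃ S : ℝ → A × A × A, S 0 = (0, 0, 1) ∧ ∀ s, |s| < δ →
      ContinuousAt S s ∧ S s = (0, 0, 1) + s • L.Nl ψ (S s) ∧ act st (S s) = S s ∧
      ContDiffAt ℝ ∞ (fun h : E => act (trR h) (S s)) 0 := by
  let Gm : (ℝ × A) × A × A × A → A × A × A := fun v => v.2 - v.1.1 • L.Nl v.1.2 v.2
  let u : (ℝ × A) × A × A × A := ((0, ψ), (0, 0, 1))
  have hG : ContDiff ℝ ω Gm := by
    have := L.contDiff_Nl.comp (f := fun v : (ℝ × A) × A × A × A => (v.1.2, v.2)) (by fun_prop)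
    exact contDiff_snd.sub ((contDiff_fst.comp contDiff_fst).smul this)
  have cdf : ContDiffAt ℝ ω Gm u := hG.contDiffAt
  have hGu : Gm u = (0, 0, 1) := by simp [Gm, u]
  have hinv : (fderiv ℝ Gm u ∘L .inr ℝ (ℝ × A) (A × A × A)).IsInvertible := by
    have h1 : HasFDerivAt (Gm ∘ fun X => (u.1, X)) (fderiv ℝ Gm u ∘L .inr ℝ (ℝ × A) (A × A × A))
        u.2 :=
      (cdf.differentiableAt (by simp)).hasFDerivAt.comp u.2 (hasFDerivAt_prodMk_right u.1 u.2)
    have h2 : (Gm ∘ fun X => (u.1, X)) = id := by ext1 X; simp [Gm, u]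
    rw [h2] at h1
    rw [h1.unique (hasFDerivAt_id _)]
    exact ⟨ContinuousLinearEquiv.refl ℝ _, rfl⟩
  set Sol := cdf.implicitFunction (by simp) hinv with hSol
  have h1 := cdf.eventually_apply_eq_iff_implicitFunction (by simp) hinv
  have h2 := cdf.contDiffAt_implicitFunction (by simp) hinv
  have h3 := cdf.eventually_apply_implicitFunction (by simp) hinv
  have h4 := cdf.implicitFunction_apply_self (by simp) hinv
  rw [← hSol] at h1 h2 h3 h4
  obtain ⟨ρ, hρ, hρ1⟩ := Metric.eventually_nhds_iff.1 h1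
  have h5 : ∀ᶠ p in 𝓝 u.1, dist (Sol p) u.2 < ρ := by
    have := h2.continuousAt.tendsto
    rw [h4] at this
    exact this (Metric.ball_mem_nhds _ hρ)
  obtain ⟨δ, hδ, hδ1⟩ := Metric.eventually_nhds_iff.1
    ((h2.eventually (by simp)).and (h3.and h5))
  refine ⟨min δ ρ, lt_min hδ hρ, fun s => Sol (s, ψ), h4, fun s hs => ?_⟩
  obtain ⟨k1, k2, k3⟩ := hδ1 (y := (s, ψ)) (by
    simpa [u, Prod.dist_eq, hδ] using (lt_min_iff.1 hs).1)
  rw [hGu] at k2
  have k4 : Sol (s, ψ) = (0, 0, 1) + s • L.Nl ψ (Sol (s, ψ)) := by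
    rw [← k2]; simp [Gm]
  have key : ∀ σ : A →+* A, (∀ a, ‖σ a‖ = ‖a‖) → (∀ (r : ℝ) a, σ (r • a) = r • σ a) →
      (∀ X, L.Nl (σ ψ) (act σ X) = act σ (L.Nl ψ X)) → dist (σ ψ) ψ < ρ →
      Sol (s, σ ψ) = act σ (Sol (s, ψ)) := by
    intro σ hn hr hN hd
    refine (hρ1 (y := ((s, σ ψ), act σ (Sol (s, ψ)))) ?_).1 ?_
    · simp only [u, Prod.dist_eq (x := ((s, σ ψ), act σ (Sol (s, ψ)))), max_lt_iff,
        norm_act_sub hn]
      refine ⟨?_, k3⟩
      simpa [Prod.dist_eq, hd] using (lt_min_iff.1 hs).2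
    · rw [hGu]
      simp only [Gm, hN]
      rw [sub_eq_iff_eq_add]
      conv_lhs => rw [k4]
      simp [act, hr]
  refine ⟨?_, k4, ?_, ?_⟩
  · exact ContinuousAt.comp (f := fun s : ℝ => (s, ψ)) k1.continuousAt (by fun_prop)
  · have := key st norm_st (fun r a => ev_inj (by
      ext x
      rw [← Complex.coe_smul, ← Complex.coe_smul, ev_smul, ev_st, ev_smul]
      simp [ev_st])) (L.Nl_st ψ) (by simpa [hψ'] using hρ)
    rw [hψ'] at this
    exact this.symm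
  · have k5 : ∀ᶠ h in 𝓝 (0 : E), dist (tr h ψ) ψ < ρ := by
      have := hψ.continuous.tendsto 0
      rw [tr_zero] at this
      exact this (Metric.ball_mem_nhds _ hρ)
    have k6 : (fun h : E => act (trR h) (Sol (s, ψ))) =ᶠ[𝓝 0] fun h => Sol (s, tr h ψ) := by
      filter_upwards [k5] with h hh
      exact (key (trR h) (norm_tr h) (fun r a => ((tr h).restrictScalars ℝ).map_smul r a)
        (L.Nl_tr h ψ) hh).symm
    refine ContDiffAt.congr_of_eventuallyEq ?_ k6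
    refine ContDiffAt.comp (g := Sol) (f := fun h : E => (s, tr h ψ)) 0 ?_
      (contDiffAt_const.prodMk hψ.contDiffAt)
    rw [tr_zero]
    exact k1.of_le le_top

end Lat

end Vale.Agent.P205
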