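import Vale.Agent.P205.Beltrami
import Vale.Agent.P205.Conformal

/-! Every smooth metric on the two-torus is induced by a smooth map to four-space. -/

open scoped ComplexConjugate ContDiff Real Topology
open Complex Filter

noncomputable section

namespace Vale.Agent.P205

/-- the square lattice -/
def L0 : Lat := ⟨![1, I], by
  simp only [Matrix.cons_val_zero, Matrix.cons_val_one, conj_I, map_one, one_mul]
  intro h
  have := congrArg im h
  norm_num at this⟩

lemma L0_z (v : E) : L0.z v = v 0 + v 1 * I := by simp [Lat.z_apply, L0]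

theorem torus_complex {a b c : E → ℝ} (ha : ContDiff ℝ ∞ a) (hb : ContDiff ℝ ∞ b)
    (hc : ContDiff ℝ ∞ c) (pa : Per a) (pb : Per b) (pc : Per c) (h0 : ∀ x, 0 < a x)
    (h1 : ∀ x, 0 < a x * c x - b x ^ 2) :
    ∃ F₁ F₂ : E → ℂ, ContDiff ℝ ∞ F₁ ∧ ContDiff ℝ ∞ F₂ ∧ Per F₁ ∧ Per F₂ ∧
      ∀ x v, normSq (fderiv ℝ F₁ x v) + normSq (fderiv ℝ F₂ x v) =
        a x * v 0 ^ 2 + 2 * b x * v 0 * v 1 + c x * v 1 ^ 2 := by
  set D : E → ℝ := fun x => √(a x * c x - b x ^ 2) with hD
  have hDc : ContDiff ℝ ∞ D := ((ha.mul hc).sub (hb.pow 2)).sqrt fun x => (h1 x).ne'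
  have hDp : ∀ x, 0 < D x := fun x => Real.sqrt_pos.2 (h1 x)
  have hD2 : ∀ x, D x ^ 2 = a x * c x - b x ^ 2 := fun x => Real.sq_sqrt (h1 x).le
  have hc0 : ∀ x, 0 < c x := fun x => by
    have := h1 x
    by_contra h
    nlinarith [h0 x, sq_nonneg (b x)]
  set S : E → ℝ := fun x => a x + c x + 2 * D x with hS
  have hSc : ContDiff ℝ ∞ S := (ha.add hc).add (contDiff_const.mul hDc)
  have hSp : ∀ x, 0 < S x := fun x => by
    have := h0 x; have := hc0 x; have := hDp x; positivity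
  have pS : Per S := fun x k => by simp only [hS, hD, pa x k, pb x k, pc x k]
  set μ : E → ℂ := fun x => ((a x - c x) / S x : ℝ) + (2 * b x / S x : ℝ) * I with hμ
  have hμc : ContDiff ℝ ∞ μ :=
    (ofRealCLM.contDiff.comp ((ha.sub hc).div hSc fun x => (hSp x).ne')).add
      ((ofRealCLM.contDiff.comp ((contDiff_const.mul hb).div hSc fun x => (hSp x).ne')).mul
        contDiff_const)
  have pμ : Per μ := fun x k => by simp only [hμ, pa x k, pb x k, pc x k, pS x k]
  have hμ1 : ∀ x, ‖μ x‖ < 1 := fun x => by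
    rw [← sq_lt_one_iff₀ (norm_nonneg _), ← normSq_eq_norm_sq, hμ, normSq_add_mul_I, div_pow,
      div_pow, ← add_div, div_lt_one (pow_pos (hSp x) 2)]
    have := hD2 x
    have := mul_pos (hDp x) (hSp x)
    simp only [hS] at *
    nlinarith
  have hq : ∀ x v, S x / 4 * normSq (L0.z v + μ x * conj (L0.z v)) =
      a x * v 0 ^ 2 + 2 * b x * v 0 * v 1 + c x * v 1 ^ 2 := fun x v => by
    have := (hSp x).ne'
    simp only [L0_z, hμ, normSq_apply, add_re, mul_re, add_im, mul_im, ofReal_re, ofReal_im, I_re,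
      I_im, conj_re, conj_im]
    field_simp
    simp only [hS]
    linear_combination (4 * (v 0 ^ 2 + v 1 ^ 2)) * hD2 x
  obtain ⟨W, σ, L, hW, hσ, pσ, pW, hi, dW⟩ := L0.exists_isothermal hμc pμ hμ1
  obtain ⟨V, hV, hVW, hWV⟩ := exists_inverse hW L pW hi
  set ψ : E → ℝ := fun x => Real.log (S x / 4) / 2 - (σ x).re with hψ
  have hψc : ContDiff ℝ ∞ ψ :=
    (((hSc.div_const 4).log fun x => by have := hSp x; positivity).div_const 2).sub
      (reCLM.contDiff.comp hσ)
  have pψ : Per ψ := fun x k => by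
    have := pσ x k
    simp only [hψ, pS x k] at this ⊢
    rw [this]
  obtain ⟨F₁, F₂, s1, s2, p1, p2, hF⟩ := L.conformal (φ := fun y => ψ (V (L.z y)))
    (hψc.comp (hV.comp L.z.contDiff)) (fun y k => by
      have : V (L.z (y + lat k)) = V (L.z y) + lat k := by
        rw [← hVW (V (L.z y) + lat k), pW, hWV, map_add]
      simp only [this, pψ _ k])
  set e := equivOfInj _ L.z_injective with he
  have hez : ∀ u, L.z (e.symm u) = u := e.apply_symm_apply
  have hez' : ∀ u, e.symm (L.z u) = u := e.symm_apply_apply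
  have hχ : ContDiff ℝ ∞ fun x => e.symm (W x) := e.symm.contDiff.comp hW
  have pχ : ∀ x k, e.symm (W (x + lat k)) = e.symm (W x) + lat k := fun x k => by
    rw [pW, map_add, hez']
  have hd : ∀ F : E → ℂ, ContDiff ℝ ∞ F → ∀ x v, fderiv ℝ (fun x => F (e.symm (W x))) x v =
      fderiv ℝ F (e.symm (W x)) (e.symm (fderiv ℝ W x v)) := fun F hF x v => by
    have := ((hF.differentiable (by simp) _).hasFDerivAt.comp x
      (e.symm.hasFDerivAt.comp x (hW.differentiable (by simp) x).hasFDerivAt)).fderiv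
    exact DFunLike.congr_fun this v
  refine ⟨fun x => F₁ (e.symm (W x)), fun x => F₂ (e.symm (W x)), s1.comp hχ, s2.comp hχ,
    fun x k => by simp only [pχ, p1 _ k], fun x k => by simp only [pχ, p2 _ k], fun x v => ?_⟩
  rw [hd _ s1, hd _ s2, hF, hez, hez, hVW, dW, map_mul, ← mul_assoc, ← hq]
  congr 1
  rw [normSq_eq_norm_sq, norm_exp, ← Real.exp_nat_mul, ← Real.exp_add,
    ← Real.exp_log (show 0 < S x / 4 by have := hSp x; positivity)]
  congr 1
  simp only [hψ]
  push_cast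
  ring

/-- two complex numbers as a point of Euclidean four-space -/
def pack : ℂ × ℂ →L[ℝ] EuclideanSpace ℝ (Fin 4) :=
  (EuclideanSpace.equiv (Fin 4) ℝ).symm.toContinuousLinearMap ∘L ContinuousLinearMap.pi
    ![reCLM ∘L .fst ℝ ℂ ℂ, imCLM ∘L .fst ℝ ℂ ℂ, reCLM ∘L .snd ℝ ℂ ℂ, imCLM ∘L .snd ℝ ℂ ℂ]

lemma norm_pack (p : ℂ × ℂ) : ‖pack p‖ ^ 2 = normSq p.1 + normSq p.2 := by
  rw [EuclideanSpace.real_norm_sq_eq, Fin.sum_univ_four]
  simp [pack, normSq_apply]
  ring

theorem torus_fun (g : E → E → E → ℝ) (hg : ∀ v w, ContDiff ℝ ∞ fun x => g x v w) (pg : Per g)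
    (hs : ∀ x v w, g x v w = g x w v) (hadd : ∀ x u v w, g x (u + v) w = g x u w + g x v w)
    (hsmul : ∀ x (c : ℝ) v w, g x (c • v) w = c * g x v w) (hp : ∀ x v, v ≠ 0 → 0 < g x v v) :
    ∃ F : E → EuclideanSpace ℝ (Fin 4), ContDiff ℝ ∞ F ∧ Per F ∧
      ∀ x v w, inner ℝ (fderiv ℝ F x v) (fderiv ℝ F x w) = g x v w := by
  set e0 : E := Pi.single 0 1
  set e1 : E := Pi.single 1 1
  have hadd' : ∀ x u v w, g x w (u + v) = g x w u + g x w v := fun x u v w => by
    rw [hs, hadd, hs x u, hs x v]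
  have hsmul' : ∀ x (c : ℝ) v w, g x w (c • v) = c * g x w v := fun x c v w => by
    rw [hs, hsmul, hs]
  have hv : ∀ v : E, v = v 0 • e0 + v 1 • e1 := fun v => by
    ext i; fin_cases i <;> simp [e0, e1]
  have hq : ∀ x v, g x v v =
      g x e0 e0 * v 0 ^ 2 + 2 * g x e0 e1 * v 0 * v 1 + g x e1 e1 * v 1 ^ 2 := fun x v => by
    conv_lhs => rw [hv v]
    simp only [hadd, hadd', hsmul, hsmul', hs x e1 e0]
    ring
  have h0 : ∀ x, 0 < g x e0 e0 := fun x => hp x e0 (by simp [e0])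
  have hpe : ∀ u w, Per fun x => g x u w := fun u w x k => by simp only [pg x k]
  obtain ⟨F₁, F₂, s1, s2, p1, p2, hF⟩ := torus_complex (hg e0 e0) (hg e0 e1) (hg e1 e1)
    (hpe _ _) (hpe _ _) (hpe _ _) h0 (fun x => by
      have h1 := hp x ![-g x e0 e1, g x e0 e0] (fun h => (h0 x).ne' (congrFun h 1))
      rw [hq] at h1
      simp only [Matrix.cons_val_zero, Matrix.cons_val_one] at h1
      by_contra h
      nlinarith [h0 x])
  have hd : ∀ x v, fderiv ℝ (fun x => pack (F₁ x, F₂ x)) x v =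
      pack (fderiv ℝ F₁ x v, fderiv ℝ F₂ x v) := fun x v => by
    have := (pack.hasFDerivAt.comp x ((s1.differentiable (by simp) x).hasFDerivAt.prodMk
      (s2.differentiable (by simp) x).hasFDerivAt)).fderiv
    exact DFunLike.congr_fun this v
  refine ⟨fun x => pack (F₁ x, F₂ x), pack.contDiff.comp (s1.prodMk s2),
    fun x k => by simp only [p1 x k, p2 x k], fun x v w => ?_⟩
  have key : ∀ u, ‖fderiv ℝ (fun x => pack (F₁ x, F₂ x)) x u‖ ^ 2 = g x u u := fun u => by
    rw [hd, norm_pack, hF, hq x u]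
  have h1 := key (v + w)
  rw [map_add, norm_add_sq_real, key, key] at h1
  simp only [hadd, hadd', hs x w v] at h1
  linarith

open Matrix in
theorem torus_matrix (g : E → Matrix (Fin 2) (Fin 2) ℝ) (hg : ∀ i j, ContDiff ℝ ∞ fun x => g x i j)
    (pg : Per g) (hp : ∀ x, (g x).PosDef) :
    ∃ F : E → EuclideanSpace ℝ (Fin 4), ContDiff ℝ ∞ F ∧ Per F ∧
      ∀ x v w, inner ℝ (fderiv ℝ F x v) (fderiv ℝ F x w) = v ⬝ᵥ g x *ᵥ w := by
  refine torus_fun (fun x v w => v ⬝ᵥ g x *ᵥ w) (fun v w => ?_) (fun x k => by simp only [pg x k])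
    (fun x v w => ?_) (fun x u v w => add_dotProduct _ _ _) (fun x c v w => smul_dotProduct _ _ _)
    (fun x v hv => by simpa using (hp x).dotProduct_mulVec_pos hv)
  · simp only [dotProduct, mulVec, Fin.sum_univ_two]
    have := hg 0 0; have := hg 0 1; have := hg 1 0; have := hg 1 1
    fun_prop
  · have h := (hp x).isHermitian.apply 0 1
    simp only [dotProduct, mulVec, Fin.sum_univ_two]
    rw [star_trivial] at h
    rw [h]; ring

end Vale.Agent.P205
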