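import Mathlib

/-! The Wiener algebra of absolutely convergent Fourier series on the two-torus. -/

open scoped ENNReal ComplexConjugate
open UnitAddTorus MeasureTheory

noncomputable section

namespace Vale.Agent.P205

abbrev K : Type := Fin 2 → ℤ
abbrev E : Type := Fin 2 → ℝ
abbrev T : Type := UnitAddTorus (Fin 2)

local instance instMeasCircle : MeasureSpace UnitAddCircle := ⟨AddCircle.haarAddCircle⟩

local instance instHaarCircle : Measure.IsAddHaarMeasure (volume : Measure UnitAddCircle) :=
  inferInstanceAs (Measure.IsAddHaarMeasure AddCircle.haarAddCircle)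

local instance instProbCircle : IsProbabilityMeasure (volume : Measure UnitAddCircle) :=
  inferInstanceAs (IsProbabilityMeasure AddCircle.haarAddCircle)

/-- square summable coefficient sequences -/
abbrev H : Type := lp (fun _ : K => ℂ) 2

/-- Fourier coefficients of a continuous function as an element of `H`. -/
def J : C(T, ℂ) →L[ℂ] H :=
  (mFourierBasis (d := Fin 2)).repr.toContinuousLinearEquiv.toContinuousLinearMap ∘L
    ContinuousMap.toLp 2 volume ℂ

lemma J_apply (f : C(T, ℂ)) (k : K) : J f k = mFourierCoeff f k := by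
  simp only [J, ContinuousLinearMap.comp_apply]
  exact (mFourierBasis_repr _ k).trans (mFourierCoeff_toLp f k)

lemma J_mFourier (l : K) : J (mFourier l) = lp.single 2 l 1 := by
  have := (mFourierBasis (d := Fin 2)).repr_self l
  rw [coe_mFourierBasis] at this
  exact this

/-- the `k`-th Fourier coefficient -/
def cf (k : K) : C(T, ℂ) →L[ℂ] ℂ := lp.evalCLM ℂ (fun _ : K => ℂ) 2 k ∘L J

lemma cf_apply (f : C(T, ℂ)) (k : K) : cf k f = mFourierCoeff f k := J_apply f k

lemma cf_mFourier (k l : K) : cf k (mFourier l) = if k = l then 1 else 0 := by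
  change J (mFourier l) k = _
  rw [J_mFourier, lp.single_apply, Pi.single_apply]

/-- The Wiener algebra: summable coefficient sequences. -/
def A : Type := lp (fun _ : K => ℂ) 1

instance : NormedAddCommGroup A := inferInstanceAs (NormedAddCommGroup (lp (fun _ : K => ℂ) 1))
instance : NormedSpace ℂ A := inferInstanceAs (NormedSpace ℂ (lp (fun _ : K => ℂ) 1))
instance : CompleteSpace A := inferInstanceAs (CompleteSpace (lp (fun _ : K => ℂ) 1))

/-- the coefficient functional -/
def co (k : K) : A →L[ℂ] ℂ := lp.evalCLM ℂ (fun _ : K => ℂ) 1 k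

lemma A_ext {f g : A} (h : ∀ k, co k f = co k g) : f = g := lp.ext (funext h)

lemma summable_co (f : A) : Summable fun k => ‖co k f‖ := by
  have := lp.hasSum_norm (p := 1) (by simp) f
  simp only [ENNReal.toReal_one, Real.rpow_one] at this
  exact this.summable

lemma norm_eq (f : A) : ‖f‖ = ∑' k, ‖co k f‖ := by
  have := lp.hasSum_norm (p := 1) (by simp) f
  simp only [ENNReal.toReal_one, Real.rpow_one] at this
  exact this.tsum_eq.symm

/-- build an element from a summable sequence -/
def mk (c : K → ℂ) (h : Summable fun k => ‖c k‖) : A :=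
  (⟨c, memℓp_gen (by simpa using h)⟩ : lp (fun _ : K => ℂ) 1)

@[simp] lemma co_mk (c : K → ℂ) (h : Summable fun k => ‖c k‖) (k : K) : co k (mk c h) = c k := rfl

/-- the basis vectors -/
def sg (k : K) : A := (lp.single 1 k (1 : ℂ) : lp (fun _ : K => ℂ) 1)

lemma co_sg (k l : K) : co k (sg l) = if k = l then 1 else 0 := by
  change (lp.single 1 l (1 : ℂ) : lp (fun _ : K => ℂ) 1) k = _
  rw [lp.single_apply, Pi.single_apply]

lemma norm_sg (k : K) : ‖sg k‖ = 1 := by
  have := lp.norm_single (E := fun _ : K => ℂ) (p := 1) (by simp) k (1 : ℂ)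
  exact this.trans norm_one

lemma hasSum_sg (f : A) : HasSum (fun k => co k f • sg k) f := by
  have := lp.hasSum_single (E := fun _ : K => ℂ) (p := 1) (by simp) f
  refine this.congr_fun fun k => ?_
  have h := lp.single_smul (E := fun _ : K => ℂ) (𝕜 := ℂ) 1 k (co k f) (1 : ℂ)
  rw [smul_eq_mul, mul_one] at h
  exact h.symm

lemma clm_ext {F : Type*} [NormedAddCommGroup F] [NormedSpace ℂ F] {L M : A →L[ℂ] F}
    (h : ∀ k, L (sg k) = M (sg k)) : L = M := by
  ext f
  have h1 := L.hasSum (hasSum_sg f)
  have h2 := M.hasSum (hasSum_sg f)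
  simp only [map_smul, h] at h1 h2
  exact h1.unique h2

/-- The continuous linear map with prescribed bounded values on the basis vectors. -/
def lift {F : Type*} [NormedAddCommGroup F] [NormedSpace ℂ F] [CompleteSpace F] (v : K → F)
    (C : ℝ) (hv : ∀ k, ‖v k‖ ≤ C) : A →L[ℂ] F :=
  lp.tsumCLM ℂ K F ∘L
    lp.mapCLM 1 (fun k => ContinuousLinearMap.toSpanSingleton ℂ (v k))
      ((norm_nonneg _).trans (hv 0)) (fun k => by simpa using hv k)

section lift
variable {F : Type*} [NormedAddCommGroup F] [NormedSpace ℂ F] [CompleteSpace F] {v : K → F}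
    {C : ℝ} (hv : ∀ k, ‖v k‖ ≤ C)

lemma lift_apply (f : A) : lift v C hv f = ∑' k, co k f • v k := rfl

omit [CompleteSpace F] in
include hv in
lemma summable_norm_lift (f : A) : Summable fun k => ‖co k f • v k‖ := by
  refine Summable.of_nonneg_of_le (fun _ => norm_nonneg _) (fun k => ?_)
    ((summable_co f).mul_right C)
  rw [norm_smul]
  gcongr
  exact hv k

lemma hasSum_lift (f : A) : HasSum (fun k => co k f • v k) (lift v C hv f) :=
  (summable_norm_lift hv f).of_norm.hasSum

lemma lift_sg (k : K) : lift v C hv (sg k) = v k := by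
  rw [lift_apply, tsum_eq_single k]
  · simp [co_sg]
  · intro l hl
    simp [co_sg, hl]

lemma norm_lift_le (f : A) : ‖lift v C hv f‖ ≤ C * ‖f‖ := by
  rw [norm_eq, ← tsum_mul_left, lift_apply]
  refine tsum_of_norm_bounded ((summable_co f).mul_left C).hasSum fun k => ?_
  rw [norm_smul, mul_comm]
  gcongr
  exact hv k

end lift

/-- the function with a given absolutely convergent Fourier series -/
def io : A →L[ℂ] C(T, ℂ) := lift (fun k => mFourier k) 1 (fun _ => mFourier_norm.le)

lemma io_sg (k : K) : io (sg k) = mFourier k := lift_sg _ k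

lemma cf_io (k : K) (f : A) : cf k (io f) = co k f := by
  have : cf k ∘L io = co k := clm_ext fun l => by
    simp [io_sg, cf_mFourier, co_sg]
  exact DFunLike.congr_fun this f

lemma io_inj : Function.Injective io := fun f g h =>
  A_ext fun k => by rw [← cf_io, ← cf_io, h]

lemma summable_conv (f g : A) :
    Summable fun p : K × K => ‖(co p.1 f * co p.2 g) • sg (p.1 + p.2)‖ := by
  simp only [norm_smul, norm_sg, mul_one]
  exact (summable_co f).mul_norm (summable_co g)

instance : Mul A := ⟨fun f g => ∑' p : K × K, (co p.1 f * co p.2 g) • sg (p.1 + p.2)⟩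
instance : One A := ⟨sg 0⟩

lemma mul_def (f g : A) : f * g = ∑' p : K × K, (co p.1 f * co p.2 g) • sg (p.1 + p.2) := rfl

lemma io_one : io 1 = 1 := (io_sg 0).trans mFourier_zero

lemma io_mul (f g : A) : io (f * g) = io f * io g := by
  rw [mul_def, io.map_tsum (summable_conv f g).of_norm]
  have := tsum_mul_tsum_of_summable_norm
    (summable_norm_lift (v := fun k => mFourier k) (fun _ => mFourier_norm.le) f)
    (summable_norm_lift (v := fun k => mFourier k) (fun _ => mFourier_norm.le) g)
  refine Eq.trans ?_ this.symm
  refine tsum_congr fun p => ?_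
  rw [map_smul, io_sg]
  ext x
  simp only [ContinuousMap.smul_apply, ContinuousMap.mul_apply, mFourier_add, smul_eq_mul]
  ring

lemma norm_mul_le' (f g : A) : ‖f * g‖ ≤ ‖f‖ * ‖g‖ := by
  rw [mul_def]
  refine (norm_tsum_le_tsum_norm (summable_conv f g)).trans (le_of_eq ?_)
  rw [norm_eq f, norm_eq g, tsum_mul_tsum_of_summable_norm (by simpa using summable_co f)
    (by simpa using summable_co g)]
  simp only [norm_smul, norm_sg, mul_one, norm_mul]

instance : CommRing A :=
  { (inferInstance : AddCommGroup A), (inferInstance : Mul A), (inferInstance : One A) with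
    mul_assoc := fun a b c => io_inj (by simp only [io_mul, mul_assoc])
    one_mul := fun a => io_inj (by simp only [io_mul, io_one, one_mul])
    mul_one := fun a => io_inj (by simp only [io_mul, io_one, mul_one])
    zero_mul := fun a => io_inj (by simp only [io_mul, map_zero, zero_mul])
    mul_zero := fun a => io_inj (by simp only [io_mul, map_zero, mul_zero])
    left_distrib := fun a b c => io_inj (by simp only [io_mul, map_add, mul_add])
    right_distrib := fun a b c => io_inj (by simp only [io_mul, map_add, add_mul])
    mul_comm := fun a b => io_inj (by simp only [io_mul, mul_comm]) }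

instance : NormedCommRing A :=
  { (inferInstance : NormedAddCommGroup A), (inferInstance : CommRing A) with
    norm_mul_le := norm_mul_le' }

instance : NormedAlgebra ℂ A :=
  { Algebra.ofModule (R := ℂ) (A := A)
      (fun r a b => io_inj (by simp only [io_mul, map_smul, smul_mul_assoc]))
      (fun r a b => io_inj (by simp only [io_mul, map_smul, mul_smul_comm])) with
    norm_smul_le := norm_smul_le }


end Vale.Agent.P205
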